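import Vale.Agent.P233.H165.Weight

/-! `L²` bounds and exponentially small tails for the potentials and densities of level `ε`. -/

set_option linter.all false

open MeasureTheory Filter Topology Set
open scoped ENNReal NNReal InnerProductSpace

namespace Vale.Agent.P233.H165

variable {M : Type*} [MeasurableSpace M] {m : Measure M} {C : Calc m}

/-- Data for the tail estimates: `a` (initial potential) with values in `[-C₀,0]`, `l` (final log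
density) bounded by `Λ`, and two nested cut-off functions `q`, `q'` with gradient `≤ 1`. -/
structure TailData (C : Calc m) (a l q q' : M →ₘ[m] ℝ) (C₀ Λ : ℝ) : Prop where
  hC₀ : 0 ≤ C₀
  hΛ : 0 ≤ Λ
  a2 : MemLp a 2 m
  a_bd : ∀ᵐ x ∂m, -C₀ ≤ a x ∧ a x ≤ 0
  l2 : MemLp l 2 m
  l_bd : ∀ᵐ x ∂m, |l x| ≤ Λ
  qA : q ∈ C.A
  qΓ : ∀ᵐ x ∂m, C.Γ q q x ≤ 1
  q0 : ∀ᵐ x ∂m, 0 ≤ q x
  qa : ∀ᵐ x ∂m, a x ≠ 0 → 2 * C₀ + 4 ≤ q x
  qfin : m {x | 0 < q x} < ∞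
  qA' : q' ∈ C.A
  qΓ' : ∀ᵐ x ∂m, C.Γ q' q' x ≤ 1
  q0' : ∀ᵐ x ∂m, 0 ≤ q' x
  qq' : ∀ᵐ x ∂m, 0 < q x → 2 ≤ q' x

/-- `g - 1` -/
noncomputable def gm (ε : ℝ) (u : ℝ → M →ₘ[m] ℝ) (t : ℝ) : M →ₘ[m] ℝ := ex (-(ε⁻¹ • u t)) - 1

/-- `f - 1` -/
noncomputable def fm (ε : ℝ) (φ : ℝ → M →ₘ[m] ℝ) (t : ℝ) : M →ₘ[m] ℝ := ex (ε⁻¹ • φ t) - 1

theorem gm_ae (ε : ℝ) (u : ℝ → M →ₘ[m] ℝ) (t : ℝ) :
    ∀ᵐ x ∂m, gm ε u t x = Real.exp (-(ε⁻¹ * u t x)) - 1 := by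
  filter_upwards [ex_ae (-(ε⁻¹ • u t)), neg_ae (ε⁻¹ • u t), smul_ae (u t) ε⁻¹,
    sub_ae (ex (-(ε⁻¹ • u t))) 1, one_ae (M := M) (m := m)] with x h1 h2 h3 h4 h5
  rw [gm, h4, h1, h2, h3, h5]

theorem fm_ae (ε : ℝ) (φ : ℝ → M →ₘ[m] ℝ) (t : ℝ) :
    ∀ᵐ x ∂m, fm ε φ t x = Real.exp (ε⁻¹ * φ t x) - 1 := by
  filter_upwards [ex_ae (ε⁻¹ • φ t), smul_ae (φ t) ε⁻¹,
    sub_ae (ex (ε⁻¹ • φ t)) 1, one_ae (M := M) (m := m)] with x h1 h2 h3 h4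
  rw [fm, h3, h1, h2, h4]

theorem I_wt_eq (β : ℝ) (q f : M →ₘ[m] ℝ) :
    I (wt β q * f ^ 2) = ∫ x, Real.exp (-(β * q x)) * f x ^ 2 ∂m := by
  refine integral_congr_ae ?_
  filter_upwards [wt_ae β q, mul_ae (wt β q) (f ^ 2), sq_ae f] with x h1 h2 h3
  rw [h2, h1, h3]

theorem testI_L2 (hC : IsDir C) {f : M →ₘ[m] ℝ} (h : f ∈ C.TestI) : MemLp f 2 m := by
  obtain ⟨g, hg, _⟩ := h.1.2
  exact hC.memLp _ hg.1

/-- positivity set of a class -/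
def pset (q : M →ₘ[m] ℝ) : Set M := {x | 0 < q x}

theorem pset_meas (q : M →ₘ[m] ℝ) : MeasurableSet (pset q) :=
  measurableSet_lt measurable_const q.measurable

theorem sq_integrable' {f : M →ₘ[m] ℝ} (hf : MemLp f 2 m) : Integrable (fun x => f x ^ 2) m :=
  hf.integrable_sq

theorem I_sq_eq_int (f : M →ₘ[m] ℝ) : I (f ^ 2) = ∫ x, f x ^ 2 ∂m :=
  integral_congr_ae (sq_ae f)

theorem compl_le_wt (hC : IsDir C) {β : ℝ} (hβ : 0 ≤ β) {q f : M →ₘ[m] ℝ} (hq : q ∈ C.A)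
    (hf : MemLp f 2 m) :
    ∫ x in (pset q)ᶜ, f x ^ 2 ∂m ≤ I (wt β q * f ^ 2) := by
  have hw := wt_top hC β hq
  have h1 : Integrable (fun x => Real.exp (-(β * q x)) * f x ^ 2) m := by
    have := int_of_mem (mem_mul_top hw (mem_sq hf))
    refine this.congr ?_
    filter_upwards [wt_ae β q, mul_ae (wt β q) (f ^ 2), sq_ae f] with x h1 h2 h3
    rw [h2, h1, h3]
  rw [I_wt_eq]
  calc ∫ x in (pset q)ᶜ, f x ^ 2 ∂m ≤ ∫ x in (pset q)ᶜ, Real.exp (-(β * q x)) * f x ^ 2 ∂m := by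
        refine setIntegral_mono_on (sq_integrable' hf).integrableOn h1.integrableOn
          (pset_meas q).compl fun x hx => ?_
        have hx' : q x ≤ 0 := by
          rw [pset, mem_compl_iff, mem_setOf_eq, not_lt] at hx; exact hx
        have : 1 ≤ Real.exp (-(β * q x)) := Real.one_le_exp (by nlinarith)
        nlinarith [sq_nonneg (f x)]
    _ ≤ ∫ x, Real.exp (-(β * q x)) * f x ^ 2 ∂m :=
        setIntegral_le_integral h1 (Eventually.of_forall fun x => by positivity)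

theorem I_sq_le_split {S : Set M} (hS : MeasurableSet S) (hSf : m S < ∞) {f : M →ₘ[m] ℝ}
    (hf : MemLp f 2 m) {D : ℝ} (hD : ∀ᵐ x ∂m, x ∈ S → |f x| ≤ D) :
    I (f ^ 2) ≤ D ^ 2 * m.real S + ∫ x in Sᶜ, f x ^ 2 ∂m := by
  rw [I_sq_eq_int, ← integral_add_compl hS (sq_integrable' hf)]
  gcongr
  have h1 : ∫ x in S, f x ^ 2 ∂m ≤ ∫ x in S, D ^ 2 ∂m := by
    refine setIntegral_mono_on_ae (sq_integrable' hf).integrableOn
      (integrableOn_const (hs := hSf.ne)) hS ?_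
    filter_upwards [hD] with x hx hxS
    have := hx hxS
    rw [← sq_abs]; gcongr
  refine h1.trans_eq ?_
  rw [setIntegral_const, smul_eq_mul, mul_comm]

section

variable {ε : ℝ} {a l q q' : M →ₘ[m] ℝ} {φ u : ℝ → M →ₘ[m] ℝ} {C₀ Λ K : ℝ}
  {P : ℝ → (M →ₘ[m] ℝ) → (M →ₘ[m] ℝ)}

theorem sq_le_two_exp {x : ℝ} (hx : 0 ≤ x) : x ^ 2 ≤ 2 * Real.exp x := by
  have := Real.quadratic_le_exp_of_nonneg hx
  linarith

/-- `x ≤ (1+X)(1 - e^{-x})` for `0 ≤ x ≤ X` -/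
theorem le_one_sub_exp {x X : ℝ} (hx : 0 ≤ x) (hX : x ≤ X) :
    x ≤ (1 + X) * (1 - Real.exp (-x)) := by
  have h1 := Real.add_one_le_exp x
  have h2 : Real.exp x * Real.exp (-x) = 1 := by rw [← Real.exp_add]; simp
  have h3 := Real.exp_pos (-x)
  have h4 : Real.exp (-x) * (1 + x) ≤ 1 := by nlinarith
  have h5 : Real.exp (-x) ≤ 1 := by rw [Real.exp_le_one_iff]; linarith
  nlinarith [mul_nonneg (sub_nonneg.2 hX) (sub_nonneg.2 h5)]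

theorem exp_sub_one_le {x X : ℝ} (hx : 0 ≤ x) (hX : x ≤ X) : Real.exp x - 1 ≤ x * Real.exp X := by
  have h1 : Real.exp x - 1 ≤ x * Real.exp x := by
    have := Real.add_one_le_exp (-x)
    have h2 : Real.exp x * Real.exp (-x) = 1 := by rw [← Real.exp_add]; simp
    nlinarith [Real.exp_pos x]
  exact h1.trans (mul_le_mul_of_nonneg_left (Real.exp_le_exp.2 hX) hx)

variable (hC : IsDir C) (hP : Heat C K P) (hF : Fam C P ε a l φ u)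
  (hT : TailData C a l q q' C₀ Λ)
include hC hP hF hT

theorem Fam.u0_bd : ∀ᵐ x ∂m, -C₀ ≤ u 0 x ∧ u 0 x ≤ 0 := by
  have hε2 : 0 < ε ^ 2 := pow_pos hF.pair.hε 2
  have hn : MemLp (-a : M →ₘ[m] ℝ) 2 m := mem_neg hT.a2
  have h1 : (-a : M →ₘ[m] ℝ) ≤ C₀ • 1 := by
    rw [le_iff_ae]
    filter_upwards [neg_ae a, smul_ae (1 : M →ₘ[m] ℝ) C₀, one_ae (M := M) (m := m), hT.a_bd]
      with x e1 e2 e3 e4
    rw [e1, e2, e3]; linarith [e4.1]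
  have h2 : 0 ≤ (-a : M →ₘ[m] ℝ) := by
    rw [nonneg_iff_ae]
    filter_upwards [neg_ae a, hT.a_bd] with x e1 e2
    rw [e1]; linarith [e2.2]
  have h3 := hC.J_le hε2 hn hT.hC₀ h1
  have h4 := hC.J_nonneg hε2 hn h2
  have h5 := hC.J_le hε2 (hC.J_mem2 hε2 hn) hT.hC₀ h3
  have h6 := hC.J_nonneg hε2 (hC.J_mem2 hε2 hn) h4
  have h7 : u 0 = -C.J (ε ^ 2) (C.J (ε ^ 2) (-a)) := by
    rw [hF.init, hC.J_neg hε2 hT.a2, hC.J_neg hε2 (hC.J_mem2 hε2 hT.a2), neg_neg]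
  rw [le_iff_ae] at h5
  rw [nonneg_iff_ae] at h6
  rw [h7]
  filter_upwards [h5, h6, neg_ae (C.J (ε ^ 2) (C.J (ε ^ 2) (-a))), smul_ae (1 : M →ₘ[m] ℝ) C₀,
    one_ae (M := M) (m := m)] with x e1 e2 e3 e4 e5
  rw [e4, e5] at e1
  rw [e3]
  constructor <;> linarith

theorem Fam.g_mono {t : ℝ} (ht : t ∈ Icc (0:ℝ) 1) :
    MemLp (gm ε u t) 2 m ∧ MemLp (gm ε u 0) 2 m ∧ gm ε u t = P (ε * t / 2) (gm ε u 0) := by
  have h0 : MemLp (gm ε u 0) 2 m := testI_L2 hC (hF.pair.g_mem 0 ⟨le_rfl, zero_le_one⟩)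
  have ht2 : MemLp (gm ε u t) 2 m := testI_L2 hC (hF.pair.g_mem t ht)
  refine ⟨ht2, h0, ?_⟩
  have := hF.pair.g_eq t ht
  rw [sub_zero] at this
  exact this

theorem Fam.g_weight0 : I (wt ε⁻¹ q * gm ε u 0 ^ 2) ≤
    ε⁻¹ ^ 2 * Real.exp (2 * C₀ * ε⁻¹) * (4 * (Real.exp (-((2 * C₀ + 4) * ε⁻¹)) * I (a ^ 2))) := by
  have hε := hF.pair.hε
  have hi : 0 < ε⁻¹ := inv_pos.2 hε
  have hw := wt_top hC ε⁻¹ hT.qA
  have hu0 : MemLp (u 0) 2 m := testI_L2 hC (hF.pair.u_mem 0 ⟨le_rfl, zero_le_one⟩)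
  have hg0 : MemLp (gm ε u 0) 2 m := testI_L2 hC (hF.pair.g_mem 0 ⟨le_rfl, zero_le_one⟩)
  have ha := hT.a2
  have hε2 : 0 < ε ^ 2 := pow_pos hε 2
  have hlb : ε ^ 2 * ε⁻¹ ^ 2 ≤ 1 := by
    rw [← mul_pow, mul_inv_cancel₀ hε.ne']; norm_num
  have s1 : I (wt ε⁻¹ q * u 0 ^ 2) ≤ 4 * I (wt ε⁻¹ q * a ^ 2) := by
    rw [hF.init]
    have e1 := res_weight hC hε2 hlb hT.qA hT.qΓ (hC.J_mem2 hε2 ha)
    have e2 := res_weight hC hε2 hlb hT.qA hT.qΓ ha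
    linarith
  have s2 : I (wt ε⁻¹ q * a ^ 2) ≤ Real.exp (-((2 * C₀ + 4) * ε⁻¹)) * I (a ^ 2) := by
    rw [← I_smul]
    refine I_mono (mem_mul_top hw (mem_sq ha)) (mem_smul _ (mem_sq ha)) ?_
    rw [le_iff_ae]
    filter_upwards [mul_ae (wt ε⁻¹ q) (a ^ 2), sq_ae a, wt_ae ε⁻¹ q,
      smul_ae (a ^ 2) (Real.exp (-((2 * C₀ + 4) * ε⁻¹))), hT.qa] with x e1 e2 e3 e4 e5
    rw [e1, e4, e2, e3]
    by_cases hx : a x = 0
    · rw [hx]; simp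
    · have h1 := e5 hx
      have h2 : -(ε⁻¹ * q x) ≤ -((2 * C₀ + 4) * ε⁻¹) := by nlinarith
      have h3 := Real.exp_le_exp.2 h2
      exact mul_le_mul_of_nonneg_right h3 (sq_nonneg _)
  have s3 : I (wt ε⁻¹ q * gm ε u 0 ^ 2) ≤
      (ε⁻¹ ^ 2 * Real.exp (2 * C₀ * ε⁻¹)) * I (wt ε⁻¹ q * u 0 ^ 2) := by
    rw [← I_smul]
    refine I_mono (mem_mul_top hw (mem_sq hg0)) (mem_smul _ (mem_mul_top hw (mem_sq hu0))) ?_
    rw [le_iff_ae]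
    filter_upwards [mul_ae (wt ε⁻¹ q) (gm ε u 0 ^ 2), sq_ae (gm ε u 0), wt_ae ε⁻¹ q,
      smul_ae (wt ε⁻¹ q * u 0 ^ 2) (ε⁻¹ ^ 2 * Real.exp (2 * C₀ * ε⁻¹)),
      mul_ae (wt ε⁻¹ q) (u 0 ^ 2), sq_ae (u 0), Fam.u0_bd hC hP hF hT, gm_ae ε u 0]
      with x e1 e2 e3 e4 e5 e6 e7 e8
    rw [e1, e4, e2, e5, e6]
    have hw0 : 0 < wt ε⁻¹ q x := by rw [e3]; exact Real.exp_pos _
    have hx0 : 0 ≤ -(ε⁻¹ * u 0 x) := by nlinarith [e7.2]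
    have hxX : -(ε⁻¹ * u 0 x) ≤ C₀ * ε⁻¹ := by nlinarith [e7.1]
    have h1 := exp_sub_one_le hx0 hxX
    rw [← e8] at h1
    have h0 : 0 ≤ gm ε u 0 x := by rw [e8]; linarith [Real.one_le_exp hx0]
    have h2 : gm ε u 0 x ^ 2 ≤ (-(ε⁻¹ * u 0 x) * Real.exp (C₀ * ε⁻¹)) ^ 2 := by gcongr
    have h3 : (-(ε⁻¹ * u 0 x) * Real.exp (C₀ * ε⁻¹)) ^ 2 =
        ε⁻¹ ^ 2 * Real.exp (2 * C₀ * ε⁻¹) * u 0 x ^ 2 := by
      rw [mul_pow, neg_sq, mul_pow, ← Real.exp_nat_mul]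
      have : ((2:ℕ):ℝ) * (C₀ * ε⁻¹) = 2 * C₀ * ε⁻¹ := by push_cast; ring
      rw [this]; ring
    rw [h3] at h2
    nlinarith [mul_nonneg hw0.le (sub_nonneg.2 h2)]
  have hp : 0 ≤ ε⁻¹ ^ 2 * Real.exp (2 * C₀ * ε⁻¹) := by positivity
  calc _ ≤ (ε⁻¹ ^ 2 * Real.exp (2 * C₀ * ε⁻¹)) * I (wt ε⁻¹ q * u 0 ^ 2) := s3
    _ ≤ (ε⁻¹ ^ 2 * Real.exp (2 * C₀ * ε⁻¹)) * (4 * I (wt ε⁻¹ q * a ^ 2)) :=
        mul_le_mul_of_nonneg_left s1 hp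
    _ ≤ _ := by gcongr

theorem Fam.g_weight {t : ℝ} (ht : t ∈ Icc (0:ℝ) 1) :
    I (wt ε⁻¹ q * gm ε u t ^ 2) ≤ 8 * Real.exp (-(2 * ε⁻¹)) * I (a ^ 2) := by
  have hε := hF.pair.hε
  have hi : 0 < ε⁻¹ := inv_pos.2 hε
  obtain ⟨h1, h0, h2⟩ := Fam.g_mono hC hP hF hT ht
  have h3 : 0 ≤ ε * t / 2 := by have := ht.1; positivity
  have h4 := heat_weight hC hP (β := ε⁻¹) hT.qA hT.qΓ h0 h3
  rw [← h2] at h4
  have h5 := Fam.g_weight0 hC hP hF hT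
  have h6 : ε⁻¹ ^ 2 / 2 * (ε * t / 2) ≤ ε⁻¹ := by
    have e : ε⁻¹ ^ 2 / 2 * (ε * t / 2) = ε⁻¹ * t / 4 := by field_simp; ring
    rw [e]
    have := ht.2
    nlinarith
  have h7 := sq_le_two_exp (x := ε⁻¹) hi.le
  have hI := I_sq_nonneg a
  have hX : 0 ≤ I (wt ε⁻¹ q * gm ε u 0 ^ 2) := by
    rw [I_wt_eq]
    exact integral_nonneg fun x => by positivity
  calc I (wt ε⁻¹ q * gm ε u t ^ 2) ≤ Real.exp ε⁻¹ * I (wt ε⁻¹ q * gm ε u 0 ^ 2) :=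
        h4.trans (mul_le_mul_of_nonneg_right (Real.exp_le_exp.2 h6) hX)
    _ ≤ Real.exp ε⁻¹ * (ε⁻¹ ^ 2 * Real.exp (2 * C₀ * ε⁻¹) *
          (4 * (Real.exp (-((2 * C₀ + 4) * ε⁻¹)) * I (a ^ 2)))) := by gcongr
    _ ≤ Real.exp ε⁻¹ * ((2 * Real.exp ε⁻¹) * Real.exp (2 * C₀ * ε⁻¹) *
          (4 * (Real.exp (-((2 * C₀ + 4) * ε⁻¹)) * I (a ^ 2)))) := by gcongr
    _ = 8 * (Real.exp ε⁻¹ * Real.exp ε⁻¹ * Real.exp (2 * C₀ * ε⁻¹) *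
          Real.exp (-((2 * C₀ + 4) * ε⁻¹))) * I (a ^ 2) := by ring
    _ = 8 * Real.exp (-(2 * ε⁻¹)) * I (a ^ 2) := by
        rw [← Real.exp_add, ← Real.exp_add, ← Real.exp_add]
        congr 3; ring

theorem Fam.g_bd {t : ℝ} (ht : t ∈ Icc (0:ℝ) 1) :
    ∀ᵐ x ∂m, 0 ≤ gm ε u t x ∧ gm ε u t x ≤ Real.exp (C₀ * ε⁻¹) - 1 := by
  have hε := hF.pair.hε
  have hi : 0 < ε⁻¹ := inv_pos.2 hε
  obtain ⟨h1, h0, h2⟩ := Fam.g_mono hC hP hF hT ht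
  have h3 : 0 ≤ ε * t / 2 := by have := ht.1; positivity
  have hx : ∀ᵐ x ∂m, 0 ≤ gm ε u 0 x ∧ gm ε u 0 x ≤ Real.exp (C₀ * ε⁻¹) - 1 := by
    filter_upwards [Fam.u0_bd hC hP hF hT, gm_ae ε u 0] with x e7 e8
    have hx0 : 0 ≤ -(ε⁻¹ * u 0 x) := by nlinarith [e7.2]
    have hxX : -(ε⁻¹ * u 0 x) ≤ C₀ * ε⁻¹ := by nlinarith [e7.1]
    rw [e8]
    exact ⟨by linarith [Real.one_le_exp hx0], by linarith [Real.exp_le_exp.2 hxX]⟩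
  have h4 := hP.nonneg _ h3 _ h0 (nonneg_iff_ae.2 (hx.mono fun x h => h.1))
  have hc : 0 ≤ Real.exp (C₀ * ε⁻¹) - 1 := by
    have := Real.one_le_exp (mul_nonneg hT.hC₀ hi.le); linarith
  have h5 := hP.le _ h3 _ h0 _ hc (hx.mono fun x h => h.2)
  rw [← h2] at h4 h5
  rw [nonneg_iff_ae] at h4
  filter_upwards [h4, h5] with x e1 e2 using ⟨e1, e2⟩

theorem Fam.u_bd {t : ℝ} (ht : t ∈ Icc (0:ℝ) 1) : ∀ᵐ x ∂m, -C₀ ≤ u t x ∧ u t x ≤ 0 := by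
  have hε := hF.pair.hε
  have hi : 0 < ε⁻¹ := inv_pos.2 hε
  filter_upwards [Fam.g_bd hC hP hF hT ht, gm_ae ε u t] with x e1 e2
  rw [e2] at e1
  have h1 : Real.exp 0 ≤ Real.exp (-(ε⁻¹ * u t x)) := by rw [Real.exp_zero]; linarith [e1.1]
  have h2 : Real.exp (-(ε⁻¹ * u t x)) ≤ Real.exp (C₀ * ε⁻¹) := by linarith [e1.2]
  rw [Real.exp_le_exp] at h1 h2
  constructor
  · by_contra h
    push Not at h
    nlinarith
  · by_contra h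
    push Not at h
    nlinarith

/-- `|u_t| ≤ ε (g_t - 1)` -/
theorem Fam.u_le_g {t : ℝ} (ht : t ∈ Icc (0:ℝ) 1) :
    ∀ᵐ x ∂m, |u t x| ≤ ε * gm ε u t x := by
  have hε := hF.pair.hε
  filter_upwards [Fam.u_bd hC hP hF hT ht, gm_ae ε u t] with x e1 e2
  rw [e2, abs_of_nonpos e1.2]
  have := Real.add_one_le_exp (-(ε⁻¹ * u t x))
  have h2 : ε * (-(ε⁻¹ * u t x)) = -u t x := by field_simp
  nlinarith

/-- (1) tail of `g - 1` -/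
theorem Fam.g_tail {t : ℝ} (ht : t ∈ Icc (0:ℝ) 1) :
    ∫ x in (pset q)ᶜ, gm ε u t x ^ 2 ∂m ≤ 8 * Real.exp (-(2 * ε⁻¹)) * I (a ^ 2) :=
  (compl_le_wt hC (inv_pos.2 hF.pair.hε).le hT.qA (Fam.g_mono hC hP hF hT ht).1).trans
    (Fam.g_weight hC hP hF hT ht)

theorem Fam.u_tail {t : ℝ} (ht : t ∈ Icc (0:ℝ) 1) :
    ∫ x in (pset q)ᶜ, u t x ^ 2 ∂m ≤ ε ^ 2 * (8 * Real.exp (-(2 * ε⁻¹)) * I (a ^ 2)) := by
  have hu : MemLp (u t) 2 m := testI_L2 hC (hF.pair.u_mem t ht)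
  have hg := (Fam.g_mono hC hP hF hT ht).1
  refine le_trans ?_ (mul_le_mul_of_nonneg_left (Fam.g_tail hC hP hF hT ht) (sq_nonneg ε))
  rw [← integral_const_mul]
  refine integral_mono_ae (sq_integrable' hu).integrableOn
    ((sq_integrable' hg).integrableOn.const_mul _) ?_
  filter_upwards [ae_restrict_of_ae (Fam.u_le_g hC hP hF hT ht)] with x hx
  rw [← sq_abs, ← mul_pow]
  gcongr

/-- (2) `L²` bound of `u` -/
theorem Fam.u_L2 {t : ℝ} (ht : t ∈ Icc (0:ℝ) 1) :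
    I (u t ^ 2) ≤ C₀ ^ 2 * m.real (pset q) + ε ^ 2 * (8 * Real.exp (-(2 * ε⁻¹)) * I (a ^ 2)) := by
  have hu : MemLp (u t) 2 m := testI_L2 hC (hF.pair.u_mem t ht)
  refine (I_sq_le_split (pset_meas q) hT.qfin hu ?_).trans
    (add_le_add_right (Fam.u_tail hC hP hF hT ht) _)
  filter_upwards [Fam.u_bd hC hP hF hT ht] with x hx _
  rw [abs_le]; constructor <;> linarith [hx.1, hx.2, hT.hC₀]

theorem Fam.f1_ae : ∀ᵐ x ∂m, fm ε φ 1 x = Real.exp (ε⁻¹ * u 1 x + l x) - 1 := by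
  have hε := hF.pair.hε
  filter_upwards [fm_ae ε φ 1, add_ae (u 1) (ε • l), smul_ae l ε] with x e1 e2 e3
  rw [e1, hF.fin, e2, e3]
  congr 2
  field_simp

theorem Fam.f_eq' {t : ℝ} (ht : t ∈ Icc (0:ℝ) 1) :
    MemLp (fm ε φ t) 2 m ∧ MemLp (fm ε φ 1) 2 m ∧
      fm ε φ t = P (ε * (1 - t) / 2) (fm ε φ 1) :=
  ⟨testI_L2 hC (hF.pair.f_mem t ht), testI_L2 hC (hF.pair.f_mem 1 ⟨zero_le_one, le_rfl⟩),
    hF.pair.f_eq t ht⟩

/-- (3) bounds of `f` -/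
theorem Fam.f_bd {t : ℝ} (ht : t ∈ Icc (0:ℝ) 1) :
    ∀ᵐ x ∂m, Real.exp (-(C₀ * ε⁻¹ + Λ)) - 1 ≤ fm ε φ t x ∧ fm ε φ t x ≤ Real.exp Λ - 1 := by
  have hε := hF.pair.hε
  have hi : 0 < ε⁻¹ := inv_pos.2 hε
  obtain ⟨h1, h0, h2⟩ := Fam.f_eq' hC hP hF hT ht
  have h3 : 0 ≤ ε * (1 - t) / 2 := by
    have := ht.2
    have : 0 ≤ 1 - t := by linarith
    positivity
  have h1' : (1:ℝ) ∈ Icc (0:ℝ) 1 := ⟨zero_le_one, le_rfl⟩
  have hx : ∀ᵐ x ∂m, Real.exp (-(C₀ * ε⁻¹ + Λ)) - 1 ≤ fm ε φ 1 x ∧ fm ε φ 1 x ≤ Real.exp Λ - 1 := by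
    filter_upwards [Fam.u_bd hC hP hF hT h1', Fam.f1_ae hC hP hF hT, hT.l_bd] with x e1 e2 e3
    rw [abs_le] at e3
    rw [e2]
    constructor
    · have : -(C₀ * ε⁻¹ + Λ) ≤ ε⁻¹ * u 1 x + l x := by nlinarith [e1.1, e3.1]
      linarith [Real.exp_le_exp.2 this]
    · have : ε⁻¹ * u 1 x + l x ≤ Λ := by nlinarith [e1.2, e3.2]
      linarith [Real.exp_le_exp.2 this]
  have hc : 0 ≤ Real.exp Λ - 1 := by
    have := Real.one_le_exp hT.hΛ; linarith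
  have h5 := hP.le _ h3 _ h0 _ hc (hx.mono fun x h => h.2)
  have hc' : 0 ≤ 1 - Real.exp (-(C₀ * ε⁻¹ + Λ)) := by
    have : Real.exp (-(C₀ * ε⁻¹ + Λ)) ≤ 1 := by
      rw [Real.exp_le_one_iff]; nlinarith [mul_nonneg hT.hC₀ hi.le, hT.hΛ]
    linarith
  have h6 := hP.le _ h3 ((-1 : ℝ) • fm ε φ 1) (mem_smul _ h0) _ hc' (by
    filter_upwards [hx, smul_ae (fm ε φ 1) (-1)] with x e1 e2
    rw [e2]; linarith [e1.1])
  rw [hP.smul _ h3 _ _ h0, ← h2] at h6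
  rw [← h2] at h5
  filter_upwards [h5, h6, smul_ae (fm ε φ t) (-1)] with x e1 e2 e3
  rw [e3] at e2
  exact ⟨by linarith, e1⟩

/-- (4) bounds of `φ` -/
theorem Fam.φ_bd {t : ℝ} (ht : t ∈ Icc (0:ℝ) 1) :
    ∀ᵐ x ∂m, -(C₀ + ε * Λ) ≤ φ t x ∧ φ t x ≤ ε * Λ := by
  have hε := hF.pair.hε
  have hi : 0 < ε⁻¹ := inv_pos.2 hε
  filter_upwards [Fam.f_bd hC hP hF hT ht, fm_ae ε φ t] with x e1 e2
  rw [e2] at e1
  have h1 : Real.exp (-(C₀ * ε⁻¹ + Λ)) ≤ Real.exp (ε⁻¹ * φ t x) := by linarith [e1.1]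
  have h2 : Real.exp (ε⁻¹ * φ t x) ≤ Real.exp Λ := by linarith [e1.2]
  rw [Real.exp_le_exp] at h1 h2
  have h3 : φ t x = ε * (ε⁻¹ * φ t x) := by field_simp
  have h4 : ε * -(C₀ * ε⁻¹ + Λ) = -(C₀ + ε * Λ) := by field_simp
  constructor
  · rw [h3, ← h4]; gcongr
  · rw [h3]; gcongr

/-- `|φ_t| ≤ (C₀ + ε (1 + Λ)) |f_t - 1|` -/
theorem Fam.φ_le_f {t : ℝ} (ht : t ∈ Icc (0:ℝ) 1) :
    ∀ᵐ x ∂m, |φ t x| ≤ (C₀ + ε * (1 + Λ)) * |fm ε φ t x| := by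
  have hε := hF.pair.hε
  have hi : 0 < ε⁻¹ := inv_pos.2 hε
  have hC₀ := hT.hC₀
  have hΛ := hT.hΛ
  filter_upwards [Fam.φ_bd hC hP hF hT ht, fm_ae ε φ t] with x e1 e2
  set y := ε⁻¹ * φ t x with hy
  have h3 : φ t x = ε * y := by rw [hy]; field_simp
  rcases le_total 0 (φ t x) with h0 | h0
  · have hy0 : 0 ≤ y := by rw [hy]; positivity
    have h1 : 0 ≤ fm ε φ t x := by rw [e2]; linarith [Real.one_le_exp hy0]
    rw [abs_of_nonneg h0, abs_of_nonneg h1, e2, h3]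
    have h2 := Real.add_one_le_exp y
    have h4 : ε * y ≤ ε * (Real.exp y - 1) := by gcongr; linarith
    refine h4.trans ?_
    have h5 : 0 ≤ Real.exp y - 1 := by linarith
    nlinarith [mul_nonneg hC₀ h5, mul_nonneg (mul_nonneg hε.le hΛ) h5]
  · have hy0 : y ≤ 0 := by rw [hy]; nlinarith
    have h1 : fm ε φ t x ≤ 0 := by
      rw [e2]
      have : Real.exp y ≤ 1 := Real.exp_le_one_iff.2 hy0
      linarith
    rw [abs_of_nonpos h0, abs_of_nonpos h1, e2]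
    have hX : -y ≤ ε⁻¹ * C₀ + Λ := by
      have : ε⁻¹ * C₀ + Λ = ε⁻¹ * (C₀ + ε * Λ) := by field_simp
      rw [this, hy, ← mul_neg]
      gcongr
      linarith [e1.1]
    have h2 := le_one_sub_exp (x := -y) (by linarith) hX
    rw [neg_neg] at h2
    have h4 : -φ t x = ε * (-y) := by rw [h3]; ring
    have h5 : C₀ + ε * (1 + Λ) = ε * (1 + (ε⁻¹ * C₀ + Λ)) := by field_simp; ring
    rw [h4, h5]
    calc ε * -y ≤ ε * ((1 + (ε⁻¹ * C₀ + Λ)) * (1 - Real.exp y)) := by gcongr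
      _ = ε * (1 + (ε⁻¹ * C₀ + Λ)) * -(Real.exp y - 1) := by ring

/-- `|f_1 - 1| ≤ (g_1 - 1) + e^Λ |l|` -/
theorem Fam.f1_pt : ∀ᵐ x ∂m, |fm ε φ 1 x| ≤ gm ε u 1 x + Real.exp Λ * |l x| := by
  have hε := hF.pair.hε
  have hi : 0 < ε⁻¹ := inv_pos.2 hε
  have h1' : (1:ℝ) ∈ Icc (0:ℝ) 1 := ⟨zero_le_one, le_rfl⟩
  filter_upwards [Fam.f1_ae hC hP hF hT, gm_ae ε u 1, hT.l_bd, Fam.u_bd hC hP hF hT h1']
    with x e1 e2 e3 e4
  rw [e1, e2]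
  have h0 : ε⁻¹ * u 1 x ≤ 0 := by nlinarith [e4.2]
  set y := ε⁻¹ * u 1 x
  have h1 : Real.exp y ≤ 1 := Real.exp_le_one_iff.2 h0
  have h1p := Real.exp_pos y
  have h2 : |Real.exp (l x) - 1| ≤ Real.exp Λ * |l x| := by
    rcases le_total 0 (l x) with hl | hl
    · have := exp_sub_one_le hl (le_of_abs_le e3)
      rw [abs_of_nonneg hl, abs_of_nonneg (by linarith [Real.one_le_exp hl])]
      linarith
    · have h3 := Real.add_one_le_exp (l x)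
      have h4 : Real.exp (l x) ≤ 1 := Real.exp_le_one_iff.2 hl
      have h5 := Real.one_le_exp hT.hΛ
      rw [abs_of_nonpos hl, abs_of_nonpos (by linarith)]
      nlinarith
  have h3 : |Real.exp y - 1| ≤ Real.exp (-y) - 1 := by
    have h2 : Real.exp y * Real.exp (-y) = 1 := by rw [← Real.exp_add]; simp
    rw [abs_of_nonpos (by linarith)]
    nlinarith [sq_nonneg (Real.exp y - 1), sq_nonneg (Real.exp (-y) - 1), Real.exp_pos (-y)]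
  have h4 : Real.exp (y + l x) - 1 = Real.exp y * (Real.exp (l x) - 1) + (Real.exp y - 1) := by
    rw [Real.exp_add]; ring
  rw [h4]
  refine (abs_add_le _ _).trans ?_
  rw [abs_mul, abs_of_pos h1p]
  have h5 : Real.exp y * |Real.exp (l x) - 1| ≤ 1 * (Real.exp Λ * |l x|) := by gcongr
  linarith

theorem Fam.f1_tail_pt (hql : ∀ᵐ x ∂m, l x ≠ 0 → 0 < q x) :
    ∀ᵐ x ∂m, x ∈ (pset q)ᶜ → |fm ε φ 1 x| ≤ gm ε u 1 x := by
  have hε := hF.pair.hε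
  have hi : 0 < ε⁻¹ := inv_pos.2 hε
  have h1' : (1:ℝ) ∈ Icc (0:ℝ) 1 := ⟨zero_le_one, le_rfl⟩
  filter_upwards [Fam.f1_ae hC hP hF hT, gm_ae ε u 1, hql, Fam.u_bd hC hP hF hT h1']
    with x e1 e2 e3 e4 hx
  have hl : l x = 0 := by
    by_contra h
    exact hx (e3 h)
  rw [e1, e2, hl, add_zero]
  have h0 : ε⁻¹ * u 1 x ≤ 0 := by nlinarith [e4.2]
  set y := ε⁻¹ * u 1 x
  have h1 : Real.exp y ≤ 1 := Real.exp_le_one_iff.2 h0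
  have h2 : Real.exp y * Real.exp (-y) = 1 := by rw [← Real.exp_add]; simp
  rw [abs_of_nonpos (by linarith)]
  have h3 := Real.exp_pos y
  nlinarith [sq_nonneg (Real.exp y - 1), sq_nonneg (Real.exp (-y) - 1), Real.exp_pos (-y)]

theorem Fam.f1_in : ∀ᵐ x ∂m, |fm ε φ 1 x| ≤ Real.exp Λ := by
  filter_upwards [Fam.f_bd hC hP hF hT ⟨zero_le_one, le_rfl⟩] with x e1
  rw [abs_le]
  have h1 := Real.exp_pos (-(C₀ * ε⁻¹ + Λ))
  have h2 := Real.one_le_exp hT.hΛ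
  constructor <;> linarith [e1.1, e1.2]

theorem Fam.f1_L2 : ∫ x in (pset q)ᶜ, fm ε φ 1 x ^ 2 ∂m ≤
    2 * (8 * Real.exp (-(2 * ε⁻¹)) * I (a ^ 2)) + 2 * Real.exp Λ ^ 2 * I (l ^ 2) := by
  have h1' : (1:ℝ) ∈ Icc (0:ℝ) 1 := ⟨zero_le_one, le_rfl⟩
  have hf := (Fam.f_eq' hC hP hF hT h1').1
  have hg := (Fam.g_mono hC hP hF hT h1').1
  have hf' := sq_integrable' hf
  have hg' := sq_integrable' hg
  have hl' := sq_integrable' hT.l2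
  have h1 : ∫ x in (pset q)ᶜ, fm ε φ 1 x ^ 2 ∂m ≤
      ∫ x in (pset q)ᶜ, (2 * gm ε u 1 x ^ 2 + 2 * Real.exp Λ ^ 2 * l x ^ 2) ∂m := by
    refine integral_mono_ae hf'.integrableOn
      ((hg'.const_mul 2).add (hl'.const_mul (2 * Real.exp Λ ^ 2))).integrableOn ?_
    filter_upwards [ae_restrict_of_ae (Fam.f1_pt hC hP hF hT)] with x hx
    have h2 : fm ε φ 1 x ^ 2 ≤ (gm ε u 1 x + Real.exp Λ * |l x|) ^ 2 := by
      rw [← sq_abs]; gcongr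
    have h3 := sq_abs (l x)
    nlinarith [sq_nonneg (gm ε u 1 x - Real.exp Λ * |l x|)]
  refine h1.trans ?_
  rw [integral_add (hg'.const_mul 2).integrableOn (hl'.const_mul _).integrableOn,
    integral_const_mul, integral_const_mul]
  have h2 : ∫ x in (pset q)ᶜ, l x ^ 2 ∂m ≤ I (l ^ 2) := by
    rw [I_sq_eq_int]
    exact setIntegral_le_integral hl' (Eventually.of_forall fun x => sq_nonneg _)
  have h3 := Fam.g_tail hC hP hF hT h1'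
  gcongr

theorem Fam.f1_tail (hql : ∀ᵐ x ∂m, l x ≠ 0 → 0 < q x) : ∫ x in (pset q)ᶜ, fm ε φ 1 x ^ 2 ∂m ≤
    8 * Real.exp (-(2 * ε⁻¹)) * I (a ^ 2) := by
  have h1' : (1:ℝ) ∈ Icc (0:ℝ) 1 := ⟨zero_le_one, le_rfl⟩
  have hf := (Fam.f_eq' hC hP hF hT h1').1
  have hg := (Fam.g_mono hC hP hF hT h1').1
  refine le_trans ?_ (Fam.g_tail hC hP hF hT h1')
  refine setIntegral_mono_on_ae (sq_integrable' hf).integrableOn (sq_integrable' hg).integrableOn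
    (pset_meas q).compl ?_
  filter_upwards [Fam.f1_tail_pt hC hP hF hT hql] with x hx hxS
  have := hx hxS
  rw [← sq_abs]; gcongr

/-- (3) `L²` bound of `f - 1` -/
theorem Fam.f_L2 {t : ℝ} (ht : t ∈ Icc (0:ℝ) 1) :
    I (fm ε φ t ^ 2) ≤ Real.exp Λ ^ 2 * m.real (pset q) +
      (2 * (8 * Real.exp (-(2 * ε⁻¹)) * I (a ^ 2)) + 2 * Real.exp Λ ^ 2 * I (l ^ 2)) := by
  have hε := hF.pair.hε
  obtain ⟨h1, h0, h2⟩ := Fam.f_eq' hC hP hF hT ht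
  have h3 : 0 ≤ ε * (1 - t) / 2 := by
    have := ht.2
    have : 0 ≤ 1 - t := by linarith
    positivity
  have h4 := hP.contr _ h3 _ h0
  rw [← h2] at h4
  refine h4.trans ?_
  refine (I_sq_le_split (pset_meas q) hT.qfin h0 ?_).trans
    (add_le_add_right (Fam.f1_L2 hC hP hF hT) _)
  filter_upwards [Fam.f1_in hC hP hF hT] with x hx _ using hx

/-- (4) `L²` bound of `φ` -/
theorem Fam.φ_L2 {t : ℝ} (ht : t ∈ Icc (0:ℝ) 1) :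
    I (φ t ^ 2) ≤ (C₀ + ε * (1 + Λ)) ^ 2 * (Real.exp Λ ^ 2 * m.real (pset q) +
      (2 * (8 * Real.exp (-(2 * ε⁻¹)) * I (a ^ 2)) + 2 * Real.exp Λ ^ 2 * I (l ^ 2))) := by
  have hφ : MemLp (φ t) 2 m := testI_L2 hC (hF.pair.φ_mem t ht)
  have hf := (Fam.f_eq' hC hP hF hT ht).1
  refine le_trans ?_ (mul_le_mul_of_nonneg_left (Fam.f_L2 hC hP hF hT ht) (sq_nonneg _))
  rw [← I_smul]
  refine I_mono (mem_sq hφ) (mem_smul _ (mem_sq hf)) ?_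
  rw [le_iff_ae]
  filter_upwards [sq_ae (φ t), smul_ae (fm ε φ t ^ 2) ((C₀ + ε * (1 + Λ)) ^ 2), sq_ae (fm ε φ t),
    Fam.φ_le_f hC hP hF hT ht] with x e1 e2 e3 e4
  rw [e1, e2, e3, ← sq_abs (φ t x), ← sq_abs (fm ε φ t x), ← mul_pow]
  gcongr

/-- weighted tail of `f - 1` with respect to the second cut-off -/
theorem Fam.f_tail (hql : ∀ᵐ x ∂m, l x ≠ 0 → 0 < q x) {t : ℝ} (ht : t ∈ Icc (0:ℝ) 1) :
    ∫ x in (pset q')ᶜ, fm ε φ t x ^ 2 ∂m ≤ Real.exp (-ε⁻¹) *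
      (Real.exp Λ ^ 2 * m.real (pset q) + 8 * I (a ^ 2)) := by
  have hε := hF.pair.hε
  have hi : 0 < ε⁻¹ := inv_pos.2 hε
  obtain ⟨h1, h0, h2⟩ := Fam.f_eq' hC hP hF hT ht
  have h3 : 0 ≤ ε * (1 - t) / 2 := by
    have := ht.2
    have : 0 ≤ 1 - t := by linarith
    positivity
  have h4 := heat_weight hC hP (β := ε⁻¹) hT.qA' hT.qΓ' h0 h3
  rw [← h2] at h4
  have h5 : ε⁻¹ ^ 2 / 2 * (ε * (1 - t) / 2) ≤ ε⁻¹ := by
    have e : ε⁻¹ ^ 2 / 2 * (ε * (1 - t) / 2) = ε⁻¹ * (1 - t) / 4 := by field_simp; ring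
    rw [e]
    have := ht.1
    nlinarith
  have hw := wt_top hC ε⁻¹ hT.qA'
  have hint : Integrable (fun x => Real.exp (-(ε⁻¹ * q' x)) * fm ε φ 1 x ^ 2) m := by
    have := int_of_mem (mem_mul_top hw (mem_sq h0))
    refine this.congr ?_
    filter_upwards [wt_ae ε⁻¹ q', mul_ae (wt ε⁻¹ q') (fm ε φ 1 ^ 2), sq_ae (fm ε φ 1)]
      with x h1 h2 h3
    rw [h2, h1, h3]
  have h6 : I (wt ε⁻¹ q' * fm ε φ 1 ^ 2) ≤ Real.exp (-(2 * ε⁻¹)) *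
      (Real.exp Λ ^ 2 * m.real (pset q) + 8 * I (a ^ 2)) := by
    rw [I_wt_eq, ← integral_add_compl (pset_meas q) hint, mul_add]
    refine add_le_add ?_ ?_
    · have : ∫ x in pset q, Real.exp (-(ε⁻¹ * q' x)) * fm ε φ 1 x ^ 2 ∂m ≤
          ∫ x in pset q, Real.exp (-(2 * ε⁻¹)) * Real.exp Λ ^ 2 ∂m := by
        refine setIntegral_mono_on_ae hint.integrableOn
          (integrableOn_const (hs := hT.qfin.ne)) (pset_meas q) ?_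
        filter_upwards [Fam.f1_in hC hP hF hT, hT.qq'] with x e1 e2 hx
        have e3 := e2 hx
        have e4 : -(ε⁻¹ * q' x) ≤ -(2 * ε⁻¹) := by nlinarith
        have e5 : fm ε φ 1 x ^ 2 ≤ Real.exp Λ ^ 2 := by rw [← sq_abs]; gcongr
        have e6 := Real.exp_le_exp.2 e4
        gcongr
      refine this.trans_eq ?_
      rw [setIntegral_const, smul_eq_mul]; ring
    · have : ∫ x in (pset q)ᶜ, Real.exp (-(ε⁻¹ * q' x)) * fm ε φ 1 x ^ 2 ∂m ≤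
          ∫ x in (pset q)ᶜ, fm ε φ 1 x ^ 2 ∂m := by
        refine setIntegral_mono_on_ae hint.integrableOn (sq_integrable' h0).integrableOn
          (pset_meas q).compl ?_
        filter_upwards [hT.q0'] with x e1 hx
        have e2 : Real.exp (-(ε⁻¹ * q' x)) ≤ 1 := Real.exp_le_one_iff.2 (by nlinarith)
        nlinarith [sq_nonneg (fm ε φ 1 x)]
      refine this.trans ((Fam.f1_tail hC hP hF hT hql).trans (le_of_eq (by ring)))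
  have hX : 0 ≤ I (wt ε⁻¹ q' * fm ε φ 1 ^ 2) := by
    rw [I_wt_eq]
    exact integral_nonneg fun x => by positivity
  calc ∫ x in (pset q')ᶜ, fm ε φ t x ^ 2 ∂m ≤ I (wt ε⁻¹ q' * fm ε φ t ^ 2) :=
        compl_le_wt hC hi.le hT.qA' h1
    _ ≤ Real.exp ε⁻¹ * I (wt ε⁻¹ q' * fm ε φ 1 ^ 2) :=
        h4.trans (mul_le_mul_of_nonneg_right (Real.exp_le_exp.2 h5) hX)
    _ ≤ Real.exp ε⁻¹ * (Real.exp (-(2 * ε⁻¹)) *
      (Real.exp Λ ^ 2 * m.real (pset q) + 8 * I (a ^ 2))) := by gcongr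
    _ = Real.exp (-ε⁻¹) * (Real.exp Λ ^ 2 * m.real (pset q) + 8 * I (a ^ 2)) := by
        rw [← mul_assoc, ← Real.exp_add]; congr 2; ring

theorem Fam.φ_tail (hql : ∀ᵐ x ∂m, l x ≠ 0 → 0 < q x) {t : ℝ} (ht : t ∈ Icc (0:ℝ) 1) :
    ∫ x in (pset q')ᶜ, φ t x ^ 2 ∂m ≤ (C₀ + ε * (1 + Λ)) ^ 2 * (Real.exp (-ε⁻¹) *
      (Real.exp Λ ^ 2 * m.real (pset q) + 8 * I (a ^ 2))) := by
  have hφ : MemLp (φ t) 2 m := testI_L2 hC (hF.pair.φ_mem t ht)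
  have hf := (Fam.f_eq' hC hP hF hT ht).1
  refine le_trans ?_ (mul_le_mul_of_nonneg_left (Fam.f_tail hC hP hF hT hql ht) (sq_nonneg _))
  rw [← integral_const_mul]
  refine integral_mono_ae (sq_integrable' hφ).integrableOn
    ((sq_integrable' hf).integrableOn.const_mul _) ?_
  filter_upwards [ae_restrict_of_ae (Fam.φ_le_f hC hP hF hT ht)] with x hx
  rw [← sq_abs, ← sq_abs (fm ε φ t x), ← mul_pow]
  gcongr

omit hC hP hF in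
theorem TailData.mono {F : M → ℝ} (hF' : Integrable F m) (h0 : ∀ x, 0 ≤ F x) :
    ∫ x in (pset q')ᶜ, F x ∂m ≤ ∫ x in (pset q)ᶜ, F x ∂m := by
  refine setIntegral_mono_set hF'.integrableOn (Eventually.of_forall fun x => h0 x) ?_
  filter_upwards [hT.qq'] with x hx hx'
  intro h
  have h1 := hx h
  exact hx' (show 0 < q' x by linarith)

theorem Fam.ρ_ae (t : ℝ) : ∀ᵐ x ∂m, (rh ε φ u t - 1 : M →ₘ[m] ℝ) x =
    fm ε φ t x + (1 + fm ε φ t x) * gm ε u t x := by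
  filter_upwards [ex_ae (ε⁻¹ • (φ t - u t)), smul_ae (φ t - u t) ε⁻¹, sub_ae (φ t) (u t),
    sub_ae (rh ε φ u t) 1, one_ae (M := M) (m := m), fm_ae ε φ t, gm_ae ε u t]
    with x e1 e2 e3 e4 e5 e6 e7
  rw [e4, e5, e6, e7, rh, e1, e2, e3]
  have : Real.exp (ε⁻¹ * (φ t x - u t x)) =
      Real.exp (ε⁻¹ * φ t x) * Real.exp (-(ε⁻¹ * u t x)) := by
    rw [← Real.exp_add]; congr 1; ring
  rw [this]; ring

theorem Fam.ρ_sq {t : ℝ} (ht : t ∈ Icc (0:ℝ) 1) : ∀ᵐ x ∂m, (rh ε φ u t - 1 : M →ₘ[m] ℝ) x ^ 2 ≤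
    2 * fm ε φ t x ^ 2 + 2 * Real.exp Λ ^ 2 * gm ε u t x ^ 2 := by
  filter_upwards [Fam.ρ_ae hC hP hF hT t, Fam.f_bd hC hP hF hT ht] with x e1 e2
  rw [e1]
  have h0 : 0 ≤ 1 + fm ε φ t x := by
    have := Real.exp_pos (-(C₀ * ε⁻¹ + Λ))
    linarith [e2.1]
  have h1 : (1 + fm ε φ t x) ^ 2 ≤ Real.exp Λ ^ 2 := by gcongr; linarith [e2.2]
  nlinarith [sq_nonneg (fm ε φ t x - (1 + fm ε φ t x) * gm ε u t x),
    mul_nonneg (sub_nonneg.2 h1) (sq_nonneg (gm ε u t x))]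

theorem Fam.ρ_mem {t : ℝ} (ht : t ∈ Icc (0:ℝ) 1) :
    MemLp (rh ε φ u t - 1 : M →ₘ[m] ℝ) 2 m := by
  have hf := (Fam.f_eq' hC hP hF hT ht).1
  have hg := (Fam.g_mono hC hP hF hT ht).1
  rw [memLp_two_iff_integrable_sq (AEEqFun.aestronglyMeasurable _)]
  have hi := ((sq_integrable' hf).const_mul 2).add ((sq_integrable' hg).const_mul
    (2 * Real.exp Λ ^ 2))
  refine hi.mono' ((AEEqFun.aestronglyMeasurable _).pow 2) ?_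
  filter_upwards [Fam.ρ_sq hC hP hF hT ht] with x hx
  rw [Real.norm_eq_abs, abs_of_nonneg (sq_nonneg _)]
  exact hx

theorem Fam.ρ_tail (hql : ∀ᵐ x ∂m, l x ≠ 0 → 0 < q x) {t : ℝ} (ht : t ∈ Icc (0:ℝ) 1) :
    ∫ x in (pset q')ᶜ, (rh ε φ u t - 1 : M →ₘ[m] ℝ) x ^ 2 ∂m ≤
      2 * (Real.exp (-ε⁻¹) * (Real.exp Λ ^ 2 * m.real (pset q) + 8 * I (a ^ 2))) +
      2 * Real.exp Λ ^ 2 * (8 * Real.exp (-(2 * ε⁻¹)) * I (a ^ 2)) := by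
  have hf := (Fam.f_eq' hC hP hF hT ht).1
  have hg := (Fam.g_mono hC hP hF hT ht).1
  have hf' := sq_integrable' hf
  have hg' := sq_integrable' hg
  have h1 : ∫ x in (pset q')ᶜ, (rh ε φ u t - 1 : M →ₘ[m] ℝ) x ^ 2 ∂m ≤
      ∫ x in (pset q')ᶜ, (2 * fm ε φ t x ^ 2 + 2 * Real.exp Λ ^ 2 * gm ε u t x ^ 2) ∂m := by
    refine integral_mono_ae (sq_integrable' (Fam.ρ_mem hC hP hF hT ht)).integrableOn
      ((hf'.const_mul 2).add (hg'.const_mul (2 * Real.exp Λ ^ 2))).integrableOn ?_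
    exact ae_restrict_of_ae (Fam.ρ_sq hC hP hF hT ht)
  refine h1.trans ?_
  rw [integral_add (hf'.const_mul 2).integrableOn (hg'.const_mul _).integrableOn,
    integral_const_mul, integral_const_mul]
  have h2 := Fam.f_tail hC hP hF hT hql ht
  have h3 := (TailData.mono hT hg' fun x => sq_nonneg _).trans (Fam.g_tail hC hP hF hT ht)
  gcongr

/-- (5) `L²` bound of `ρ - 1`, given an upper bound `ρ ≤ D` -/
theorem Fam.ρ_L2 {t : ℝ} (ht : t ∈ Icc (0:ℝ) 1) {D : ℝ} (hD : 0 ≤ D)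
    (hρ : ∀ᵐ x ∂m, rh ε φ u t x ≤ D) :
    I ((rh ε φ u t - 1) ^ 2) ≤ (1 + D) ^ 2 * m.real (pset q) +
      (2 * (Real.exp Λ ^ 2 * m.real (pset q) +
        (2 * (8 * Real.exp (-(2 * ε⁻¹)) * I (a ^ 2)) + 2 * Real.exp Λ ^ 2 * I (l ^ 2))) +
      2 * Real.exp Λ ^ 2 * (8 * Real.exp (-(2 * ε⁻¹)) * I (a ^ 2))) := by
  have hf := (Fam.f_eq' hC hP hF hT ht).1
  have hg := (Fam.g_mono hC hP hF hT ht).1
  have hf' := sq_integrable' hf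
  have hg' := sq_integrable' hg
  refine (I_sq_le_split (pset_meas q) hT.qfin (Fam.ρ_mem hC hP hF hT ht) (D := 1 + D) ?_).trans
    (add_le_add_right ?_ _)
  · filter_upwards [hρ, sub_ae (rh ε φ u t) 1, one_ae (M := M) (m := m),
      ex_ae (ε⁻¹ • (φ t - u t))] with x e1 e2 e3 e4 _
    rw [e2, e3]
    have : 0 < rh ε φ u t x := by rw [rh, e4]; exact Real.exp_pos _
    rw [abs_le]; constructor <;> linarith
  · have h1 : ∫ x in (pset q)ᶜ, (rh ε φ u t - 1 : M →ₘ[m] ℝ) x ^ 2 ∂m ≤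
        ∫ x in (pset q)ᶜ, (2 * fm ε φ t x ^ 2 + 2 * Real.exp Λ ^ 2 * gm ε u t x ^ 2) ∂m := by
      refine integral_mono_ae (sq_integrable' (Fam.ρ_mem hC hP hF hT ht)).integrableOn
        ((hf'.const_mul 2).add (hg'.const_mul (2 * Real.exp Λ ^ 2))).integrableOn ?_
      exact ae_restrict_of_ae (Fam.ρ_sq hC hP hF hT ht)
    refine h1.trans ?_
    rw [integral_add (hf'.const_mul 2).integrableOn (hg'.const_mul _).integrableOn,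
      integral_const_mul, integral_const_mul]
    have h2 : ∫ x in (pset q)ᶜ, fm ε φ t x ^ 2 ∂m ≤ I (fm ε φ t ^ 2) := by
      rw [I_sq_eq_int]
      exact setIntegral_le_integral hf' (Eventually.of_forall fun x => sq_nonneg _)
    have h3 := Fam.g_tail hC hP hF hT ht
    have h4 := Fam.f_L2 hC hP hF hT ht
    have h5 := h2.trans h4
    gcongr

end

end Vale.Agent.P233.H165
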