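import Vale.Agent.P233.H165.Tail
import Vale.Agent.P233.H599.Radial
import Vale.Agent.P233.Gig.IfA

/-! A5(vi) in the metric setting: the fields `u2`, `f2`, `φ2`, `rho2` of part A and the
exponentially small tails. -/

set_option linter.all false

open MeasureTheory Filter Topology Set
open scoped ENNReal NNReal InnerProductSpace

universe v

namespace Vale.Agent.P233.H165

open Vale.Agent.P233 Vale.Agent.P233.Met

variable {M : Type v} [MetricSpace M] [SecondCountableTopology M] [MeasurableSpace M] [BorelSpace M]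
  {m : Measure M}

/-- tent function -/
noncomputable def tent (p : M) (R : ℝ) (x : M) : ℝ := max (R - dist p x) 0

omit [SecondCountableTopology M] [MeasurableSpace M] [BorelSpace M] in
theorem tent_lip (p : M) (R : ℝ) : LipschitzWith 1 (tent p R) := by
  have h1 : LipschitzWith 1 (fun x : M => R - dist p x) := by
    refine LipschitzWith.of_dist_le_mul fun x y => ?_
    rw [Real.dist_eq, NNReal.coe_one, one_mul]
    have e : R - dist p x - (R - dist p y) = dist y p - dist x p := by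
      rw [dist_comm p x, dist_comm p y]; ring
    rw [e, dist_comm x y]
    exact abs_dist_sub_le y x p
  exact h1.max_const 0

theorem tent_ae (p : M) (R : ℝ) : ⇑(cl m (tent p R)) =ᵐ[m] tent p R :=
  H599.cl_ae (tent_lip p R).continuous.aestronglyMeasurable

theorem tent_good (hfin : ∀ (x : M) (r : ℝ), m (Metric.ball x r) < ∞) (p : M) (R : ℝ) :
    W12 m (tent p R) := by
  have h := good_of_bounded_support hfin (tent_lip p R) (x₀ := p) (R := R) (fun x hx => by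
    rw [Metric.mem_ball, not_lt, dist_comm] at hx
    exact max_eq_right (by linarith))
  exact ⟨_, h.rSlope⟩

theorem tent_W (hfin : ∀ (x : M) (r : ℝ), m (Metric.ball x r) < ∞) (p : M) (R : ℝ) :
    cl m (tent p R) ∈ (sob m).W :=
  mem_sob_iff.2 ((tent_good hfin p R).congr (tent_ae p R).symm)

theorem tent_A (hfin : ∀ (x : M) (r : ℝ), m (Metric.ball x r) < ∞) (p : M) (R : ℝ) :
    cl m (tent p R) ∈ (sob m).A := by
  refine ⟨tent_W hfin p R, mem_top_iff.2 ⟨|R|, ?_⟩⟩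
  filter_upwards [tent_ae (m := m) p R] with x hx
  rw [hx, abs_of_nonneg (le_max_right _ _)]
  exact max_le (by linarith [le_abs_self R, dist_nonneg (x := p) (y := x)]) (abs_nonneg R)

theorem tent_Γ (hfin : ∀ (x : M) (r : ℝ), m (Metric.ball x r) < ∞) (p : M) (R : ℝ) :
    ∀ᵐ x ∂m, (sob m).Γ (cl m (tent p R)) (cl m (tent p R)) x ≤ 1 := by
  have hη1 := tent_W hfin p R (m := m)
  have h1 := slope_le_of_lipschitz hfin hη1 (tent_ae p R) (tent_lip p R)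
  rw [le_iff_ae] at h1
  filter_upwards [h1, sob_Γ_self_ae hη1, slope_ae hη1, smul_ae (1 : M →ₘ[m] ℝ) ((1:ℝ≥0):ℝ),
    one_ae (M := M) (m := m), (mem_sob_iff.1 hη1).mslope_nonneg] with x a1 a2 a3 a4 a5 a6
  rw [a3, a4, a5, NNReal.coe_one, mul_one] at a1
  rw [a2]
  nlinarith

theorem pset_tent (p : M) (R : ℝ) : pset (cl m (tent p R)) =ᵐ[m] Metric.ball p R := by
  filter_upwards [tent_ae (m := m) p R] with x hx
  apply propext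
  show 0 < cl m (tent p R) x ↔ x ∈ Metric.ball p R
  rw [hx, Metric.mem_ball, dist_comm, tent]
  simp

/-- radius of the first ball -/
noncomputable def R1 (s₀ C₀ r : ℝ) : ℝ := max (Real.sqrt (2 * C₀ * s₀)) r + (2 * C₀ + 4)

theorem tailData {K N : ℝ} (hS : Std m K N) (p : M) {s₀ C₀ r Λ : ℝ} (hs : 0 < s₀) (hC : 0 ≤ C₀)
    {l : M →ₘ[m] ℝ} (hl2 : MemLp l 2 m) (hΛ : 0 ≤ Λ) (hl : ∀ᵐ x ∂m, |l x| ≤ Λ) :
    TailData (sob m) (cl m (zr p s₀ C₀ 0)) l (cl m (tent p (R1 s₀ C₀ r)))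
      (cl m (tent p (R1 s₀ C₀ r + 2))) C₀ Λ := by
  have hτ : 0 < 0 + s₀ := by linarith
  refine ⟨hC, hΛ, ?_, ?_, hl2, hl, tent_A hS.hfin p _, tent_Γ hS.hfin p _, ?_, ?_, ?_,
    tent_A hS.hfin p _, tent_Γ hS.hfin p _, ?_, ?_⟩
  · exact (mem_sob_iff.1 (H599.zr_memW hS.hfin hτ hC)).memLp
  · filter_upwards [H599.zr_cl_ae (m := m) p s₀ C₀ 0] with x hx
    rw [hx]
    exact ⟨H599.zr_ge hτ hC x, H599.zr_nonpos p s₀ C₀ 0 x⟩
  · filter_upwards [tent_ae (m := m) p (R1 s₀ C₀ r)] with x hx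
    rw [hx]; exact le_max_right _ _
  · filter_upwards [H599.zr_cl_ae (m := m) p s₀ C₀ 0, tent_ae (m := m) p (R1 s₀ C₀ r)]
      with x e1 e2 h
    rw [e1] at h
    rw [e2]
    have h1 : x ∈ Metric.ball p (Real.sqrt (2 * C₀ * (0 + s₀))) := by
      by_contra hx
      exact h (H599.zr_zero_outside hτ hC le_rfl hx)
    rw [Metric.mem_ball, dist_comm, zero_add] at h1
    refine le_max_of_le_left ?_
    rw [R1]
    linarith [le_max_left (Real.sqrt (2 * C₀ * s₀)) r]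
  · rw [show {x | 0 < cl m (tent p (R1 s₀ C₀ r)) x} = pset (cl m (tent p (R1 s₀ C₀ r))) from rfl,
      measure_congr (pset_tent p _)]
    exact hS.hfin _ _
  · filter_upwards [tent_ae (m := m) p (R1 s₀ C₀ r + 2)] with x hx
    rw [hx]; exact le_max_right _ _
  · filter_upwards [tent_ae (m := m) p (R1 s₀ C₀ r), tent_ae (m := m) p (R1 s₀ C₀ r + 2)]
      with x e1 e2 h
    rw [e1, tent, lt_max_iff] at h
    rw [e2, tent]
    refine le_max_of_le_left ?_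
    rcases h with h | h
    · linarith
    · exact absurd h (lt_irrefl _)

theorem pset_tent_real (p : M) (R : ℝ) :
    m.real (pset (cl m (tent p R))) = m.real (Metric.ball p R) :=
  measureReal_congr (pset_tent p R)

theorem compl_tent (p : M) (R : ℝ) (F : M → ℝ) :
    ∫ x in (pset (cl m (tent p R)))ᶜ, F x ∂m = ∫ x in (Metric.ball p R)ᶜ, F x ∂m :=
  setIntegral_congr_set (pset_tent p R).compl

section fields

variable {K N : ℝ} {P : ℝ → (M →ₘ[m] ℝ) → (M →ₘ[m] ℝ)}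

theorem std_dir {K N : ℝ} (hS : Std m K N) : IsDir (sob m) :=
  (isGamma_sob hS.hfin hS.rcd.quadratic hS.rcd.sobolev_to_lipschitz).toIsDir

theorem testI_bdd {K N : ℝ} (hS : Std m K N) {l : M →ₘ[m] ℝ} (hl : l ∈ (sob m).TestI) :
    MemLp l 2 m ∧ ∃ Λ, 0 ≤ Λ ∧ ∀ᵐ x ∂m, |l x| ≤ Λ := by
  refine ⟨testI_L2 (std_dir hS) hl, ?_⟩
  obtain ⟨u, _, ⟨B, hB⟩, hu⟩ := hl.1.1
  refine ⟨max B 0, le_max_right _ _, ?_⟩
  filter_upwards [hu] with x hx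
  rw [hx]; exact (hB x).trans (le_max_left _ _)

/-- constant of the data: `V` + `8 A` -/
noncomputable def cA (m : Measure M) (p : M) (s₀ C₀ r : ℝ) : ℝ :=
  m.real (Metric.ball p (R1 s₀ C₀ r)) + 8 * I (cl m (zr p s₀ C₀ 0) ^ 2)

theorem cA_nonneg (p : M) (s₀ C₀ r : ℝ) : 0 ≤ cA m p s₀ C₀ r :=
  add_nonneg measureReal_nonneg (mul_nonneg (by norm_num) (I_sq_nonneg _))

/-- field `u2` -/
theorem fam_u2 (hS : Std m K N) (hP : Heat (sob m) K P) (p : M) {s₀ C₀ : ℝ} (hs : 0 < s₀)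
    (hC : 0 ≤ C₀) : ∃ D, 0 ≤ D ∧ ∀ ε, ε ≤ 1 → ∀ l ∈ (sob m).TestI, ∀ φ u,
    Fam (sob m) P ε (cl m (zr p s₀ C₀ 0)) l φ u → ∀ t ∈ Icc (0:ℝ) 1, I (u t ^ 2) ≤ D := by
  refine ⟨(1 + C₀ ^ 2) * cA m p s₀ C₀ 0, by have := cA_nonneg (m := m) p s₀ C₀ 0; positivity, ?_⟩
  intro ε hε1 l hl φ u hF t ht
  obtain ⟨hl2, Λ, hΛ, hlΛ⟩ := testI_bdd hS hl
  have hT := tailData hS p (r := 0) hs hC hl2 hΛ hlΛ
  have h := Fam.u_L2 (std_dir hS) hP hF hT ht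
  rw [pset_tent_real] at h
  have hε := hF.pair.hε
  have hi : 0 < ε⁻¹ := inv_pos.2 hε
  have h1 : Real.exp (-(2 * ε⁻¹)) ≤ 1 := Real.exp_le_one_iff.2 (by linarith)
  have hI := I_sq_nonneg (cl m (zr p s₀ C₀ 0))
  have hV : 0 ≤ m.real (Metric.ball p (R1 s₀ C₀ 0)) := measureReal_nonneg
  have h2 : ε ^ 2 ≤ 1 := pow_le_one₀ hε.le hε1
  have h3 : ε ^ 2 * (8 * Real.exp (-(2 * ε⁻¹)) * I (cl m (zr p s₀ C₀ 0) ^ 2)) ≤
      1 * (8 * 1 * I (cl m (zr p s₀ C₀ 0) ^ 2)) := by gcongr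
  have h4 : 0 ≤ C₀ ^ 2 * (8 * I (cl m (zr p s₀ C₀ 0) ^ 2)) := by positivity
  unfold cA
  nlinarith

/-- fields `f2`, `φ2` -/
theorem fam_f2 (hS : Std m K N) (hP : Heat (sob m) K P) (p : M) {s₀ C₀ : ℝ} (hs : 0 < s₀)
    (hC : 0 ≤ C₀) {l : M →ₘ[m] ℝ} (hl : l ∈ (sob m).TestI) : ∃ D, 0 ≤ D ∧ ∀ ε, ε ≤ 1 → ∀ φ u,
    Fam (sob m) P ε (cl m (zr p s₀ C₀ 0)) l φ u → ∀ t ∈ Icc (0:ℝ) 1,
      (∀ᵐ x ∂m, |φ t x| ≤ D) ∧ I ((ex (ε⁻¹ • φ t) - 1) ^ 2) ≤ D ∧ I (φ t ^ 2) ≤ D := by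
  obtain ⟨hl2, Λ, hΛ, hlΛ⟩ := testI_bdd hS hl
  set A := Real.exp Λ ^ 2 * m.real (Metric.ball p (R1 s₀ C₀ 0)) +
      (2 * (8 * I (cl m (zr p s₀ C₀ 0) ^ 2)) + 2 * Real.exp Λ ^ 2 * I (l ^ 2)) with hA
  have hI := I_sq_nonneg (cl m (zr p s₀ C₀ 0))
  have hI2 := I_sq_nonneg l
  have hV : 0 ≤ m.real (Metric.ball p (R1 s₀ C₀ 0)) := measureReal_nonneg
  have hA0 : 0 ≤ A := by positivity
  refine ⟨C₀ + 1 + Λ + (1 + (C₀ + 1 + Λ) ^ 2) * A, by positivity, ?_⟩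
  intro ε hε1 φ u hF t ht
  have hT := tailData hS p (r := 0) hs hC hl2 hΛ hlΛ
  have hε := hF.pair.hε
  have hi : 0 < ε⁻¹ := inv_pos.2 hε
  have h1 : Real.exp (-(2 * ε⁻¹)) ≤ 1 := Real.exp_le_one_iff.2 (by linarith)
  have hf := Fam.f_L2 (std_dir hS) hP hF hT ht
  have hφ := Fam.φ_L2 (std_dir hS) hP hF hT ht
  have hb := Fam.φ_bd (std_dir hS) hP hF hT ht
  rw [pset_tent_real] at hf hφ
  have h3 : Real.exp Λ ^ 2 * m.real (Metric.ball p (R1 s₀ C₀ 0)) +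
      (2 * (8 * Real.exp (-(2 * ε⁻¹)) * I (cl m (zr p s₀ C₀ 0) ^ 2)) +
        2 * Real.exp Λ ^ 2 * I (l ^ 2)) ≤ A := by
    rw [hA]
    have : 8 * Real.exp (-(2 * ε⁻¹)) * I (cl m (zr p s₀ C₀ 0) ^ 2) ≤
        8 * 1 * I (cl m (zr p s₀ C₀ 0) ^ 2) := by gcongr
    linarith
  have h4 : (C₀ + ε * (1 + Λ)) ^ 2 ≤ (C₀ + 1 + Λ) ^ 2 := by
    have h5 : ε * (1 + Λ) ≤ 1 * (1 + Λ) := by gcongr
    exact pow_le_pow_left₀ (by positivity) (by linarith) 2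
  have h6 : 0 ≤ (C₀ + 1 + Λ) ^ 2 * A := by positivity
  refine ⟨?_, ?_, ?_⟩
  · filter_upwards [hb] with x hx
    have h5 : ε * Λ ≤ 1 * Λ := by gcongr
    have h5' : 0 ≤ ε * Λ := by positivity
    rw [abs_le]
    constructor <;> nlinarith [hx.1, hx.2]
  · have : I ((ex (ε⁻¹ • φ t) - 1) ^ 2) ≤ A := hf.trans h3
    nlinarith
  · have : I (φ t ^ 2) ≤ (C₀ + 1 + Λ) ^ 2 * A :=
      hφ.trans (mul_le_mul h4 h3 (by positivity) (by positivity))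
    nlinarith

/-- field `rho2` -/
theorem fam_rho2 (hS : Std m K N) (hP : Heat (sob m) K P) (p : M) {s₀ C₀ : ℝ} (hs : 0 < s₀)
    (hC : 0 ≤ C₀) {l : M →ₘ[m] ℝ} (hl : l ∈ (sob m).TestI) {R : ℝ} (hR : 0 ≤ R) :
    ∃ D' : ℝ → ℝ, ∀ ε, ε ≤ 1 → ∀ φ u, Fam (sob m) P ε (cl m (zr p s₀ C₀ 0)) l φ u →
      (∀ t ∈ Ioc (0 : ℝ) 1, ∀ᵐ x ∂m,
        rh ε φ u t x ≤ t ^ (-N) * Real.exp (PA.c1 K ε C₀ * (1 - t)) * R) →
      ∀ s ∈ Ioc (0 : ℝ) 1, ∀ t ∈ Icc s 1, I ((rh ε φ u t - 1) ^ 2) ≤ D' s := by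
  obtain ⟨hl2, Λ, hΛ, hlΛ⟩ := testI_bdd hS hl
  set A := Real.exp Λ ^ 2 * m.real (Metric.ball p (R1 s₀ C₀ 0)) +
      (2 * (8 * I (cl m (zr p s₀ C₀ 0) ^ 2)) + 2 * Real.exp Λ ^ 2 * I (l ^ 2)) with hA
  have hI := I_sq_nonneg (cl m (zr p s₀ C₀ 0))
  have hI2 := I_sq_nonneg l
  have hV : 0 ≤ m.real (Metric.ball p (R1 s₀ C₀ 0)) := measureReal_nonneg
  set DD : ℝ → ℝ := fun s => s ^ (-N) * Real.exp ((1 + |K|) * |K| * C₀) * R with hDD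
  refine ⟨fun s => (1 + DD s) ^ 2 * m.real (Metric.ball p (R1 s₀ C₀ 0)) + (2 * A +
    2 * Real.exp Λ ^ 2 * (8 * I (cl m (zr p s₀ C₀ 0) ^ 2))), ?_⟩
  intro ε hε1 φ u hF hd s hs' t ht
  have hs0 : 0 < s := hs'.1
  have ht0 : 0 < t := hs0.trans_le ht.1
  have ht' : t ∈ Icc (0:ℝ) 1 := ⟨ht0.le, ht.2⟩
  have hT := tailData hS p (r := 0) hs hC hl2 hΛ hlΛ
  have hε := hF.pair.hε
  have hi : 0 < ε⁻¹ := inv_pos.2 hε
  have h1 : Real.exp (-(2 * ε⁻¹)) ≤ 1 := Real.exp_le_one_iff.2 (by linarith)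
  have hD0 : 0 ≤ DD s := by
    have := Real.rpow_nonneg hs0.le (-N)
    simp only [hDD]; positivity
  have hρ : ∀ᵐ x ∂m, rh ε φ u t x ≤ DD s := by
    filter_upwards [hd t ⟨ht0, ht.2⟩] with x hx
    refine hx.trans ?_
    simp only [hDD]
    have e1 : t ^ (-N) ≤ s ^ (-N) := Real.rpow_le_rpow_of_nonpos hs0 ht.1 (by linarith [hS.hN])
    have e2 : PA.c1 K ε C₀ * (1 - t) ≤ (1 + |K|) * |K| * C₀ := by
      unfold PA.c1
      have a1 : (1 + ε * |K|) * |K| * C₀ ≤ (1 + 1 * |K|) * |K| * C₀ := by gcongr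
      have a2 : 0 ≤ (1 + ε * |K|) * |K| * C₀ := by positivity
      have a3 : 0 ≤ 1 - t := by linarith [ht.2]
      nlinarith
    have e3 := Real.exp_le_exp.2 e2
    have e4 := Real.rpow_nonneg hs0.le (-N)
    gcongr
  have h := Fam.ρ_L2 (std_dir hS) hP hF hT ht' hD0 hρ
  rw [pset_tent_real] at h
  refine h.trans ?_
  simp only [hA]
  have h5 : 8 * Real.exp (-(2 * ε⁻¹)) * I (cl m (zr p s₀ C₀ 0) ^ 2) ≤
        8 * I (cl m (zr p s₀ C₀ 0) ^ 2) := by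
    have : 8 * Real.exp (-(2 * ε⁻¹)) * I (cl m (zr p s₀ C₀ 0) ^ 2) ≤
        8 * 1 * I (cl m (zr p s₀ C₀ 0) ^ 2) := by gcongr
    linarith
  gcongr

/-- Tails: outside the ball of radius `R1 s₀ C₀ r + 2`, everything is exponentially small. The
final log-density `l` vanishes outside `ball p r`. -/
theorem fam_tails (hS : Std m K N) (hP : Heat (sob m) K P) (p : M) {s₀ C₀ : ℝ} (hs : 0 < s₀)
    (hC : 0 ≤ C₀) {l : M →ₘ[m] ℝ} (hl : l ∈ (sob m).TestI) {r : ℝ}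
    (hlr : ∀ᵐ x ∂m, r ≤ dist p x → l x = 0) : ∃ D, 0 ≤ D ∧ ∀ ε, ε ≤ 1 → ∀ φ u,
    Fam (sob m) P ε (cl m (zr p s₀ C₀ 0)) l φ u → ∀ t ∈ Icc (0:ℝ) 1,
      ∫ x in (Metric.ball p (R1 s₀ C₀ r + 2))ᶜ, (ex (-(ε⁻¹ • u t)) - 1 : M →ₘ[m] ℝ) x ^ 2 ∂m
        ≤ D * Real.exp (-ε⁻¹) ∧
      ∫ x in (Metric.ball p (R1 s₀ C₀ r + 2))ᶜ, u t x ^ 2 ∂m ≤ D * Real.exp (-ε⁻¹) ∧
      ∫ x in (Metric.ball p (R1 s₀ C₀ r + 2))ᶜ, (ex (ε⁻¹ • φ t) - 1 : M →ₘ[m] ℝ) x ^ 2 ∂m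
        ≤ D * Real.exp (-ε⁻¹) ∧
      ∫ x in (Metric.ball p (R1 s₀ C₀ r + 2))ᶜ, φ t x ^ 2 ∂m ≤ D * Real.exp (-ε⁻¹) ∧
      ∫ x in (Metric.ball p (R1 s₀ C₀ r + 2))ᶜ, (rh ε φ u t - 1 : M →ₘ[m] ℝ) x ^ 2 ∂m
        ≤ D * Real.exp (-ε⁻¹) := by
  obtain ⟨hl2, Λ, hΛ, hlΛ⟩ := testI_bdd hS hl
  have hI := I_sq_nonneg (cl m (zr p s₀ C₀ 0))
  have hV : 0 ≤ m.real (Metric.ball p (R1 s₀ C₀ r)) := measureReal_nonneg
  set A := Real.exp Λ ^ 2 * m.real (Metric.ball p (R1 s₀ C₀ r)) +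
      8 * I (cl m (zr p s₀ C₀ 0) ^ 2) with hA
  have hA0 : 0 ≤ A := by positivity
  set A2 := 8 * I (cl m (zr p s₀ C₀ 0) ^ 2) with hA2
  have hA20 : 0 ≤ A2 := by positivity
  obtain ⟨c2, hc2⟩ : ∃ c2, c2 = (C₀ + 1 + Λ) ^ 2 * A := ⟨_, rfl⟩
  obtain ⟨c4, hc4⟩ : ∃ c4, c4 = Real.exp Λ ^ 2 * A2 := ⟨_, rfl⟩
  have hc20 : 0 ≤ c2 := by rw [hc2]; positivity
  have hc40 : 0 ≤ c4 := by rw [hc4]; positivity
  refine ⟨A2 + c2 + 2 * A + 2 * c4, by positivity, ?_⟩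
  intro ε hε1 φ u hF t ht
  have hT := tailData hS p (r := r) hs hC hl2 hΛ hlΛ
  have hε := hF.pair.hε
  have hi : 0 < ε⁻¹ := inv_pos.2 hε
  have hql : ∀ᵐ x ∂m, l x ≠ 0 → 0 < cl m (tent p (R1 s₀ C₀ r)) x := by
    filter_upwards [hlr, tent_ae (m := m) p (R1 s₀ C₀ r)] with x e1 e2 h
    have h1 : dist p x < r := by
      by_contra h2; exact h (e1 (not_lt.1 h2))
    rw [e2, tent]
    refine lt_max_of_lt_left ?_
    rw [R1]
    linarith [le_max_right (Real.sqrt (2 * C₀ * s₀)) r]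
  have hg' := (Fam.g_mono (std_dir hS) hP hF hT ht).1
  have hu' : MemLp (u t) 2 m := testI_L2 (std_dir hS) (hF.pair.u_mem t ht)
  have g1 := (TailData.mono hT (sq_integrable' hg') fun x => sq_nonneg _).trans
    (Fam.g_tail (std_dir hS) hP hF hT ht)
  have u1 := (TailData.mono hT (sq_integrable' hu') fun x => sq_nonneg _).trans
    (Fam.u_tail (std_dir hS) hP hF hT ht)
  have f1 := Fam.f_tail (std_dir hS) hP hF hT hql ht
  have φ1 := Fam.φ_tail (std_dir hS) hP hF hT hql ht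
  have r1 := Fam.ρ_tail (std_dir hS) hP hF hT hql ht
  rw [pset_tent_real] at f1 φ1 r1
  rw [compl_tent] at g1 u1 f1 φ1 r1
  have hE : Real.exp (-(2 * ε⁻¹)) ≤ Real.exp (-ε⁻¹) := Real.exp_le_exp.2 (by linarith)
  have hE0 := Real.exp_pos (-ε⁻¹)
  have h2 : ε ^ 2 ≤ 1 := pow_le_one₀ hε.le hε1
  have k1 : 8 * Real.exp (-(2 * ε⁻¹)) * I (cl m (zr p s₀ C₀ 0) ^ 2) ≤ A2 * Real.exp (-ε⁻¹) := by
    rw [hA2]
    nlinarith [mul_nonneg (sub_nonneg.2 hE) hI]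
  have k0 : 0 ≤ 8 * Real.exp (-(2 * ε⁻¹)) * I (cl m (zr p s₀ C₀ 0) ^ 2) := by positivity
  have h4 : (C₀ + ε * (1 + Λ)) ^ 2 ≤ (C₀ + 1 + Λ) ^ 2 := by
    have h5 : ε * (1 + Λ) ≤ 1 * (1 + Λ) := by gcongr
    exact pow_le_pow_left₀ (by positivity) (by linarith) 2
  have key : ∀ c X : ℝ, c ≤ A2 + c2 + 2 * A + 2 * c4 → X ≤ c * Real.exp (-ε⁻¹) →
      X ≤ (A2 + c2 + 2 * A + 2 * c4) * Real.exp (-ε⁻¹) := fun c X h h' =>
    h'.trans (mul_le_mul_of_nonneg_right h hE0.le)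
  refine ⟨?_, ?_, ?_, ?_, ?_⟩
  · exact key A2 _ (by linarith) (g1.trans k1)
  · have : ε ^ 2 * (8 * Real.exp (-(2 * ε⁻¹)) * I (cl m (zr p s₀ C₀ 0) ^ 2)) ≤
        1 * (A2 * Real.exp (-ε⁻¹)) :=
      mul_le_mul h2 k1 k0 zero_le_one
    rw [one_mul] at this
    exact key A2 _ (by linarith) (u1.trans this)
  · refine key A _ (by linarith) ?_
    rw [mul_comm]; exact f1
  · have : (C₀ + ε * (1 + Λ)) ^ 2 * (Real.exp (-ε⁻¹) * A) ≤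
        (C₀ + 1 + Λ) ^ 2 * (Real.exp (-ε⁻¹) * A) := by gcongr
    refine key c2 _ (by linarith) (φ1.trans (this.trans_eq ?_))
    rw [hc2]; ring
  · have : 2 * Real.exp Λ ^ 2 * (8 * Real.exp (-(2 * ε⁻¹)) * I (cl m (zr p s₀ C₀ 0) ^ 2)) ≤
        2 * Real.exp Λ ^ 2 * (A2 * Real.exp (-ε⁻¹)) := by gcongr
    refine key (2 * A + 2 * c4) _ (by linarith) (r1.trans ((add_le_add_right this _).trans_eq ?_))
    rw [hc4]; ring

end fields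

end Vale.Agent.P233.H165
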