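import Vale.Agent.P233.H165.TailM

/-! The tail of `g - 1` with an arbitrary exponential rate. -/

set_option linter.all false

open MeasureTheory Filter Topology Set
open scoped ENNReal NNReal InnerProductSpace

universe v

namespace Vale.Agent.P233.H165

open Vale.Agent.P233 Vale.Agent.P233.Met

section

variable {M : Type*} [MeasurableSpace M] {m : Measure M} {C : Calc m}
variable {ε : ℝ} {a l q q' : M →ₘ[m] ℝ} {φ u : ℝ → M →ₘ[m] ℝ} {C₀ Λ K Q : ℝ}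
  {P : ℝ → (M →ₘ[m] ℝ) → (M →ₘ[m] ℝ)}

variable (hC : IsDir C) (hP : Heat C K P) (hF : Fam C P ε a l φ u)
  (hT : TailData C a l q q' C₀ Λ)

include hC hP hF hT

theorem Fam.g_weight0Q (hQ : ∀ᵐ x ∂m, a x ≠ 0 → Q ≤ q x) : I (wt ε⁻¹ q * gm ε u 0 ^ 2) ≤
    ε⁻¹ ^ 2 * Real.exp (2 * C₀ * ε⁻¹) * (4 * (Real.exp (-(Q * ε⁻¹)) * I (a ^ 2))) := by
  have hε := hF.pair.hε
  have hi : 0 < ε⁻¹ := inv_pos.2 hε
  have hw := wt_top hC ε⁻¹ hT.qA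
  have hu0 : MemLp (u 0) 2 m := testI_L2 hC (hF.pair.u_mem 0 ⟨le_rfl, zero_le_one⟩)
  have hg0 : MemLp (gm ε u 0) 2 m := testI_L2 hC (hF.pair.g_mem 0 ⟨le_rfl, zero_le_one⟩)
  have ha := hT.a2
  have hε2 : 0 < ε ^ 2 := pow_pos hε 2
  have hlb : ε ^ 2 * ε⁻¹ ^ 2 ≤ 1 := by
    rw [← mul_pow, mul_inv_cancel₀ hε.ne']; norm_num
  have s1 : I (wt ε⁻¹ q * u 0 ^ 2) ≤ 4 * I (wt ε⁻¹ q * a ^ 2) := by
    rw [hF.init]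
    have e1 := res_weight hC hε2 hlb hT.qA hT.qΓ (hC.J_mem2 hε2 ha)
    have e2 := res_weight hC hε2 hlb hT.qA hT.qΓ ha
    linarith
  have s2 : I (wt ε⁻¹ q * a ^ 2) ≤ Real.exp (-(Q * ε⁻¹)) * I (a ^ 2) := by
    rw [← I_smul]
    refine I_mono (mem_mul_top hw (mem_sq ha)) (mem_smul _ (mem_sq ha)) ?_
    rw [le_iff_ae]
    filter_upwards [mul_ae (wt ε⁻¹ q) (a ^ 2), sq_ae a, wt_ae ε⁻¹ q,
      smul_ae (a ^ 2) (Real.exp (-(Q * ε⁻¹))), hQ] with x e1 e2 e3 e4 e5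
    rw [e1, e4, e2, e3]
    by_cases hx : a x = 0
    · rw [hx]; simp
    · have h1 := e5 hx
      have h2 : -(ε⁻¹ * q x) ≤ -(Q * ε⁻¹) := by nlinarith
      have h3 := Real.exp_le_exp.2 h2
      exact mul_le_mul_of_nonneg_right h3 (sq_nonneg _)
  have s3 : I (wt ε⁻¹ q * gm ε u 0 ^ 2) ≤
      (ε⁻¹ ^ 2 * Real.exp (2 * C₀ * ε⁻¹)) * I (wt ε⁻¹ q * u 0 ^ 2) := by
    rw [← I_smul]
    refine I_mono (mem_mul_top hw (mem_sq hg0)) (mem_smul _ (mem_mul_top hw (mem_sq hu0))) ?_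
    rw [le_iff_ae]
    filter_upwards [mul_ae (wt ε⁻¹ q) (gm ε u 0 ^ 2), sq_ae (gm ε u 0), wt_ae ε⁻¹ q,
      smul_ae (wt ε⁻¹ q * u 0 ^ 2) (ε⁻¹ ^ 2 * Real.exp (2 * C₀ * ε⁻¹)),
      mul_ae (wt ε⁻¹ q) (u 0 ^ 2), sq_ae (u 0), Fam.u0_bd hC hP hF hT, gm_ae ε u 0]
      with x e1 e2 e3 e4 e5 e6 e7 e8
    rw [e1, e4, e2, e5, e6]
    have hw0 : 0 < wt ε⁻¹ q x := by rw [e3]; exact Real.exp_pos _
    have hx0 : 0 ≤ -(ε⁻¹ * u 0 x) := by nlinarith [e7.2]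
    have hxX : -(ε⁻¹ * u 0 x) ≤ C₀ * ε⁻¹ := by nlinarith [e7.1]
    have h1 := exp_sub_one_le hx0 hxX
    rw [← e8] at h1
    have h0 : 0 ≤ gm ε u 0 x := by rw [e8]; linarith [Real.one_le_exp hx0]
    have h2 : gm ε u 0 x ^ 2 ≤ (-(ε⁻¹ * u 0 x) * Real.exp (C₀ * ε⁻¹)) ^ 2 := by gcongr
    have h3 : (-(ε⁻¹ * u 0 x) * Real.exp (C₀ * ε⁻¹)) ^ 2 =
        ε⁻¹ ^ 2 * Real.exp (2 * C₀ * ε⁻¹) * u 0 x ^ 2 := by
      rw [mul_pow, neg_sq, mul_pow, ← Real.exp_nat_mul]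
      have : ((2:ℕ):ℝ) * (C₀ * ε⁻¹) = 2 * C₀ * ε⁻¹ := by push_cast; ring
      rw [this]; ring
    rw [h3] at h2
    nlinarith [mul_nonneg hw0.le (sub_nonneg.2 h2)]
  have hp : 0 ≤ ε⁻¹ ^ 2 * Real.exp (2 * C₀ * ε⁻¹) := by positivity
  calc _ ≤ (ε⁻¹ ^ 2 * Real.exp (2 * C₀ * ε⁻¹)) * I (wt ε⁻¹ q * u 0 ^ 2) := s3
    _ ≤ (ε⁻¹ ^ 2 * Real.exp (2 * C₀ * ε⁻¹)) * (4 * I (wt ε⁻¹ q * a ^ 2)) :=
        mul_le_mul_of_nonneg_left s1 hp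
    _ ≤ _ := by gcongr

theorem Fam.g_weightQ (hQ : ∀ᵐ x ∂m, a x ≠ 0 → Q ≤ q x) {t : ℝ} (ht : t ∈ Icc (0:ℝ) 1) :
    ∫ x in (pset q)ᶜ, gm ε u t x ^ 2 ∂m ≤ 8 * I (a ^ 2) *
      Real.exp (-((Q - 2 * C₀ - 2) * ε⁻¹)) := by
  have hε := hF.pair.hε
  have hi : 0 < ε⁻¹ := inv_pos.2 hε
  obtain ⟨h1, h0, h2⟩ := Fam.g_mono hC hP hF hT ht
  have h3 : 0 ≤ ε * t / 2 := by have := ht.1; positivity
  have h4 := heat_weight hC hP (β := ε⁻¹) hT.qA hT.qΓ h0 h3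
  rw [← h2] at h4
  have h5 := Fam.g_weight0Q hC hP hF hT hQ
  have h6 : ε⁻¹ ^ 2 / 2 * (ε * t / 2) ≤ ε⁻¹ := by
    have e : ε⁻¹ ^ 2 / 2 * (ε * t / 2) = ε⁻¹ * t / 4 := by field_simp; ring
    rw [e]
    have := ht.2
    nlinarith
  have h7 := sq_le_two_exp (x := ε⁻¹) hi.le
  have hI := I_sq_nonneg a
  have hX : 0 ≤ I (wt ε⁻¹ q * gm ε u 0 ^ 2) := by
    rw [I_wt_eq]
    exact integral_nonneg fun x => by positivity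
  calc ∫ x in (pset q)ᶜ, gm ε u t x ^ 2 ∂m ≤ I (wt ε⁻¹ q * gm ε u t ^ 2) :=
        compl_le_wt hC hi.le hT.qA h1
    _ ≤ Real.exp ε⁻¹ * I (wt ε⁻¹ q * gm ε u 0 ^ 2) :=
        h4.trans (mul_le_mul_of_nonneg_right (Real.exp_le_exp.2 h6) hX)
    _ ≤ Real.exp ε⁻¹ * (ε⁻¹ ^ 2 * Real.exp (2 * C₀ * ε⁻¹) *
          (4 * (Real.exp (-(Q * ε⁻¹)) * I (a ^ 2)))) := by gcongr
    _ ≤ Real.exp ε⁻¹ * ((2 * Real.exp ε⁻¹) * Real.exp (2 * C₀ * ε⁻¹) *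
          (4 * (Real.exp (-(Q * ε⁻¹)) * I (a ^ 2)))) := by gcongr
    _ = 8 * I (a ^ 2) * (Real.exp ε⁻¹ * Real.exp ε⁻¹ * Real.exp (2 * C₀ * ε⁻¹) *
          Real.exp (-(Q * ε⁻¹))) := by ring
    _ = 8 * I (a ^ 2) * Real.exp (-((Q - 2 * C₀ - 2) * ε⁻¹)) := by
        rw [← Real.exp_add, ← Real.exp_add, ← Real.exp_add]
        congr 2; ring

end

section

variable {M : Type v} [MetricSpace M] [SecondCountableTopology M] [MeasurableSpace M] [BorelSpace M]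
  {m : Measure M} {K N : ℝ} {P : ℝ → (M →ₘ[m] ℝ) → (M →ₘ[m] ℝ)}

/-- the tail of `g - 1` with any rate `κ` -/
theorem fam_gtail_rate (hS : Std m K N) (hP : Heat (sob m) K P) (p : M) {s₀ C₀ : ℝ} (hs : 0 < s₀)
    (hC : 0 ≤ C₀) {κ : ℝ} (hκ : 0 ≤ κ) {ε : ℝ} {l : M →ₘ[m] ℝ} (hl : l ∈ (sob m).TestI)
    {φ u : ℝ → M →ₘ[m] ℝ} (hF : Fam (sob m) P ε (cl m (zr p s₀ C₀ 0)) l φ u) {t : ℝ}
    (ht : t ∈ Icc (0:ℝ) 1) :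
    ∫ x in (Metric.ball p (R1 s₀ C₀ κ + κ + Real.sqrt (2 * C₀ * s₀)))ᶜ,
      (ex (-(ε⁻¹ • u t)) - 1 : M →ₘ[m] ℝ) x ^ 2 ∂m
        ≤ 8 * I (cl m (zr p s₀ C₀ 0) ^ 2) * Real.exp (-(κ * ε⁻¹)) := by
  obtain ⟨hl2, Λ, hΛ, hlΛ⟩ := testI_bdd hS hl
  have hτ : 0 < 0 + s₀ := by linarith
  have hsq := Real.sqrt_nonneg (2 * C₀ * s₀)
  have hT := tailData hS p (r := max (Real.sqrt (2 * C₀ * s₀)) κ + κ + Real.sqrt (2 * C₀ * s₀))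
    hs hC hl2 hΛ hlΛ
  have hR : R1 s₀ C₀ (max (Real.sqrt (2 * C₀ * s₀)) κ + κ + Real.sqrt (2 * C₀ * s₀)) =
      R1 s₀ C₀ κ + κ + Real.sqrt (2 * C₀ * s₀) := by
    unfold R1
    rw [max_eq_right (a := Real.sqrt (2 * C₀ * s₀)) (b := max _ _ + κ + Real.sqrt (2 * C₀ * s₀))
      (by linarith [le_max_left (Real.sqrt (2 * C₀ * s₀)) κ])]
    ring
  rw [hR] at hT
  have hQ : ∀ᵐ x ∂m, cl m (zr p s₀ C₀ 0) x ≠ 0 →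
      κ + 2 * C₀ + 2 ≤ cl m (tent p (R1 s₀ C₀ κ + κ + Real.sqrt (2 * C₀ * s₀))) x := by
    filter_upwards [H599.zr_cl_ae (m := m) p s₀ C₀ 0,
      tent_ae (m := m) p (R1 s₀ C₀ κ + κ + Real.sqrt (2 * C₀ * s₀))] with x e1 e2 h
    rw [e1] at h
    rw [e2]
    have h1 : x ∈ Metric.ball p (Real.sqrt (2 * C₀ * (0 + s₀))) := by
      by_contra hx
      exact h (H599.zr_zero_outside hτ hC le_rfl hx)
    rw [Metric.mem_ball, dist_comm, zero_add] at h1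
    refine le_max_of_le_left ?_
    rw [R1]
    linarith [le_max_left (Real.sqrt (2 * C₀ * s₀)) κ]
  have h := Fam.g_weightQ (std_dir hS) hP hF hT hQ ht
  rw [compl_tent] at h
  refine h.trans_eq ?_
  congr 3
  ring

end

end Vale.Agent.P233.H165
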