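import Vale.Agent.P233.Gig.Defs

/-! Exponentially weighted `L²` estimates for the resolvent and the heat semigroup (static weight
`exp (-β q)`, `Γ(q,q) ≤ 1`). -/

set_option linter.all false

open MeasureTheory Filter Topology Set
open scoped ENNReal NNReal InnerProductSpace

namespace Vale.Agent.P233.H165

variable {M : Type*} [MeasurableSpace M] {m : Measure M} {C : Calc m}

theorem ex_ae (f : M →ₘ[m] ℝ) : ∀ᵐ x ∂m, ex f x = Real.exp (f x) :=
  AEEqFun.coeFn_comp Real.exp Real.continuous_exp f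

/-- the weight `exp (-β q)` -/
noncomputable def wt (β : ℝ) (q : M →ₘ[m] ℝ) : M →ₘ[m] ℝ := ex (-(β • q))

theorem wt_ae (β : ℝ) (q : M →ₘ[m] ℝ) : ∀ᵐ x ∂m, wt β q x = Real.exp (-(β * q x)) := by
  filter_upwards [ex_ae (-(β • q)), neg_ae (β • q), smul_ae q β] with x h1 h2 h3
  rw [wt, h1, h2, h3]

/-- `exp (-β q) - 1` -/
noncomputable def om (β : ℝ) (q : M →ₘ[m] ℝ) : M →ₘ[m] ℝ :=
  AEEqFun.comp (fun t => Real.exp (-(β * t)) - 1) (by fun_prop) q

theorem om_ae (β : ℝ) (q : M →ₘ[m] ℝ) : ∀ᵐ x ∂m, om β q x = Real.exp (-(β * q x)) - 1 :=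
  AEEqFun.coeFn_comp _ _ q

theorem wt_eq (β : ℝ) (q : M →ₘ[m] ℝ) : wt β q = 1 + om β q := by
  rw [eq_iff_ae]
  filter_upwards [wt_ae β q, add_ae 1 (om β q), one_ae (M := M) (m := m), om_ae β q] with x h1 h2 h3 h4
  rw [h1, h2, h3, h4]; ring

section dir

variable (hC : IsDir C)
include hC

theorem om_spec (β : ℝ) {q : M →ₘ[m] ℝ} (hq : q ∈ C.A) :
    om β q ∈ C.A ∧ ∀ g ∈ C.W, C.Γ (om β q) g = -(β • (wt β q * C.Γ q g)) := by
  obtain ⟨K, hK⟩ := mem_top_iff.1 hq.2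
  have hch := hC.chain_bdd hq.1 hK (φ := fun t => Real.exp (-(β * t)) - 1)
    (φ' := fun t => -(β * Real.exp (-(β * t)))) (by fun_prop) (by fun_prop)
    (fun t _ => by
      have h1 : HasDerivAt (fun t : ℝ => -(β * t)) (-β) t :=
        (((hasDerivAt_id t).const_mul β).neg).congr_deriv (by ring)
      have h2 := h1.exp.sub_const 1
      refine (h2.congr_deriv ?_).hasDerivWithinAt
      ring) (by simp)
  refine ⟨⟨hch.1, ?_⟩, fun g hg => ?_⟩
  · rw [mem_top_iff]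
    refine ⟨Real.exp (|β| * K) + 1, ?_⟩
    filter_upwards [om_ae β q, hK] with x h1 h2
    rw [h1]
    have h3 : -(β * q x) ≤ |β| * K := by
      calc -(β * q x) ≤ |β * q x| := neg_le_abs _
        _ = |β| * |q x| := abs_mul _ _
        _ ≤ |β| * K := by gcongr
    have h4 : Real.exp (-(β * q x)) ≤ Real.exp (|β| * K) := Real.exp_le_exp.2 h3
    have h5 := Real.exp_pos (-(β * q x))
    rw [abs_le]; constructor <;> linarith [Real.exp_pos (|β| * K)]
  · rw [om, hch.2 g hg, eq_iff_ae]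
    filter_upwards [mul_ae (AEEqFun.comp (fun t => -(β * Real.exp (-(β * t)))) (by fun_prop) q)
      (C.Γ q g), AEEqFun.coeFn_comp (fun t => -(β * Real.exp (-(β * t)))) (by fun_prop) q,
      neg_ae (β • (wt β q * C.Γ q g)), smul_ae (wt β q * C.Γ q g) β, mul_ae (wt β q) (C.Γ q g),
      wt_ae β q] with x h1 h2 h3 h4 h5 h6
    rw [h1, h2, h3, h4, h5, h6]
    simp only [Function.comp]
    ring

theorem wt_bdd (β : ℝ) {q : M →ₘ[m] ℝ} (hq : q ∈ C.A) : ∃ K, 0 ≤ K ∧ ∀ᵐ x ∂m, |wt β q x| ≤ K := by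
  obtain ⟨K, hK⟩ := mem_top_iff.1 hq.2
  refine ⟨Real.exp (|β| * K), (Real.exp_pos _).le, ?_⟩
  filter_upwards [wt_ae β q, hK] with x h1 h2
  rw [h1, abs_of_pos (Real.exp_pos _)]
  apply Real.exp_le_exp.2
  calc -(β * q x) ≤ |β * q x| := neg_le_abs _
    _ = |β| * |q x| := abs_mul _ _
    _ ≤ |β| * K := by gcongr

theorem om_Γ {β : ℝ} {q : M →ₘ[m] ℝ} (hq : q ∈ C.A) (hq1 : ∀ᵐ x ∂m, C.Γ q q x ≤ 1) :
    MemLp (C.Γ (om β q) (om β q)) ∞ m := by
  obtain ⟨h1, h2⟩ := om_spec hC β hq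
  obtain ⟨K, hK0, hK⟩ := wt_bdd hC β hq
  rw [mem_top_iff]
  refine ⟨β ^ 2 * K ^ 2, ?_⟩
  have h3 := h2 _ h1.1
  have h4 := h2 _ hq.1
  rw [hC.symm _ h1.1 _ hq.1] at h4
  rw [h3, h4]
  filter_upwards [neg_ae (β • (wt β q * -(β • (wt β q * C.Γ q q)))),
    smul_ae (wt β q * -(β • (wt β q * C.Γ q q))) β, mul_ae (wt β q) (-(β • (wt β q * C.Γ q q))),
    neg_ae (β • (wt β q * C.Γ q q)), smul_ae (wt β q * C.Γ q q) β, mul_ae (wt β q) (C.Γ q q),
    hK, hq1, hC.Γ_nonneg_ae hq.1] with x e1 e2 e3 e4 e5 e6 e7 e8 e9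
  rw [e1, e2, e3, e4, e5, e6]
  have h5 : -(β * (wt β q x * -(β * (wt β q x * C.Γ q q x)))) =
      β ^ 2 * (wt β q x) ^ 2 * C.Γ q q x := by ring
  rw [h5, abs_of_nonneg (by positivity)]
  have h6 : (wt β q x) ^ 2 ≤ K ^ 2 := by
    rw [← sq_abs (wt β q x)]; gcongr
  calc β ^ 2 * (wt β q x) ^ 2 * C.Γ q q x ≤ β ^ 2 * K ^ 2 * 1 := by gcongr
    _ = β ^ 2 * K ^ 2 := by ring

/-- `Γ(u, ω u) ≥ -(β²/4) ω u²` -/
theorem Γ_om_ge {β : ℝ} {q : M →ₘ[m] ℝ} (hq : q ∈ C.A) (hq1 : ∀ᵐ x ∂m, C.Γ q q x ≤ 1)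
    {u : M →ₘ[m] ℝ} (hu : u ∈ C.W) :
    u + om β q * u ∈ C.W ∧
    ∀ᵐ x ∂m, -(β ^ 2 / 4) * (wt β q x * u x ^ 2) ≤ C.Γ u (u + om β q * u) x := by
  obtain ⟨h1, h2⟩ := om_spec hC β hq
  have hG := om_Γ hC (β := β) hq hq1
  have hm := hC.mul_mem_lip h1 hG hu
  refine ⟨hC.add_mem _ hu _ hm, ?_⟩
  have e0 : C.Γ u (u + om β q * u) = C.Γ u u + (om β q * C.Γ u u
      + u * -(β • (wt β q * C.Γ q u))) := by
    rw [hC.Γ_add_right hu hu hm, hC.symm u hu _ hm, hC.Γ_mul_left_lip h1 hG hu hu, h2 u hu]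
  rw [e0]
  filter_upwards [add_ae (C.Γ u u) (om β q * C.Γ u u + u * -(β • (wt β q * C.Γ q u))),
    add_ae (om β q * C.Γ u u) (u * -(β • (wt β q * C.Γ q u))), mul_ae (om β q) (C.Γ u u),
    mul_ae u (-(β • (wt β q * C.Γ q u))), neg_ae (β • (wt β q * C.Γ q u)),
    smul_ae (wt β q * C.Γ q u) β, mul_ae (wt β q) (C.Γ q u), wt_ae β q, om_ae β q,
    hC.Γ_cs_ae hq.1 hu, hC.Γ_nonneg_ae hu, hq1, hC.Γ_nonneg_ae hq.1]
    with x a1 a2 a3 a4 a5 a6 a7 a8 a9 a10 a11 a12 a13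
  rw [a1, a2, a3, a4, a5, a6, a7, a9, a8]
  set w := Real.exp (-(β * q x)) with hw
  have hw0 : 0 < w := Real.exp_pos _
  have h3 : C.Γ q u x ^ 2 ≤ C.Γ u u x := by nlinarith
  have h4 : 0 ≤ C.Γ u u x - β * u x * C.Γ q u x + β ^ 2 / 4 * u x ^ 2 := by
    nlinarith [sq_nonneg (C.Γ q u x - β / 2 * u x)]
  nlinarith [mul_nonneg hw0.le h4]

theorem wt_top (β : ℝ) {q : M →ₘ[m] ℝ} (hq : q ∈ C.A) : MemLp (wt β q) ∞ m := by
  obtain ⟨K, _, hK⟩ := wt_bdd hC β hq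
  exact mem_top_iff.2 ⟨K, hK⟩

/-- the resolvent -/
theorem res_weight {β lam : ℝ} (hl : 0 < lam) (hlb : lam * β ^ 2 ≤ 1) {q : M →ₘ[m] ℝ}
    (hq : q ∈ C.A) (hq1 : ∀ᵐ x ∂m, C.Γ q q x ≤ 1) {a : M →ₘ[m] ℝ} (ha : MemLp a 2 m) :
    I (wt β q * C.J lam a ^ 2) ≤ 2 * I (wt β q * a ^ 2) := by
  set u := C.J lam a with hu_def
  have hs := hC.J_spec hl ha
  have hu : u ∈ C.W := hs.1
  have hu2 : MemLp u 2 m := hC.memLp u hu
  obtain ⟨h1, h2⟩ := Γ_om_ge hC (β := β) hq hq1 hu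
  have hw := wt_top hC β hq
  have h3 := hs.2 _ h1
  have hwe : u + om β q * u = wt β q * u := by rw [wt_eq]; ring
  have hwu : MemLp (wt β q * u : M →ₘ[m] ℝ) 2 m := mem_mul_top hw hu2
  have i1 : MemLp (wt β q * u ^ 2 : M →ₘ[m] ℝ) 1 m := mem_mul_top hw (mem_sq hu2)
  have i2 : MemLp (wt β q * a ^ 2 : M →ₘ[m] ℝ) 1 m := mem_mul_top hw (mem_sq ha)
  have i3 : MemLp (C.Γ u (u + om β q * u)) 1 m := hC.Γ_mem1 hu h1
  have h4 : -(β ^ 2 / 4) * I (wt β q * u ^ 2) ≤ I (C.Γ u (u + om β q * u)) := by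
    rw [← I_smul]
    refine I_mono (mem_smul _ i1) i3 ?_
    rw [le_iff_ae]
    filter_upwards [h2, smul_ae (wt β q * u ^ 2) (-(β ^ 2 / 4)), mul_ae (wt β q) (u ^ 2),
      sq_ae u] with x e1 e2 e3 e4
    rw [e2, e3, e4]; exact e1
  have h5 : I (u * (u + om β q * u)) = I (wt β q * u ^ 2) := by
    rw [hwe]; congr 1; ring
  have h6 : I (a * (u + om β q * u)) ≤ 3 / 8 * I (wt β q * u ^ 2) + 2 / 3 * I (wt β q * a ^ 2) := by
    rw [hwe, ← I_smul, ← I_smul, ← I_add (mem_smul _ i1) (mem_smul _ i2)]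
    refine I_mono (mem_mul_22 ha hwu) (mem_add (mem_smul _ i1) (mem_smul _ i2)) ?_
    rw [le_iff_ae]
    filter_upwards [mul_ae a (wt β q * u), mul_ae (wt β q) u,
      add_ae ((3 / 8 : ℝ) • (wt β q * u ^ 2)) ((2 / 3 : ℝ) • (wt β q * a ^ 2)),
      smul_ae (wt β q * u ^ 2) (3 / 8), smul_ae (wt β q * a ^ 2) (2 / 3),
      mul_ae (wt β q) (u ^ 2), mul_ae (wt β q) (a ^ 2), sq_ae u, sq_ae a, wt_ae β q]
      with x e1 e2 e3 e4 e5 e6 e7 e8 e9 e10
    rw [e1, e2, e3, e4, e5, e6, e7, e8, e9]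
    have hw0 : 0 < wt β q x := by rw [e10]; exact Real.exp_pos _
    have := mul_nonneg hw0.le (sq_nonneg (3 * u x - 4 * a x))
    nlinarith [this]
  rw [h5] at h3
  have hX : 0 ≤ I (wt β q * u ^ 2) := by
    apply I_nonneg
    rw [nonneg_iff_ae]
    filter_upwards [mul_ae (wt β q) (u ^ 2), sq_ae u, wt_ae β q] with x e1 e2 e3
    rw [e1, e2, e3]; positivity
  have hY : 0 ≤ I (wt β q * a ^ 2) := by
    apply I_nonneg
    rw [nonneg_iff_ae]
    filter_upwards [mul_ae (wt β q) (a ^ 2), sq_ae a, wt_ae β q] with x e1 e2 e3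
    rw [e1, e2, e3]; positivity
  have h7 : lam * I (C.Γ u (u + om β q * u)) ≥ -(1 / 4) * I (wt β q * u ^ 2) := by
    have : lam * I (C.Γ u (u + om β q * u)) ≥ lam * (-(β ^ 2 / 4) * I (wt β q * u ^ 2)) :=
      mul_le_mul_of_nonneg_left h4 hl.le
    nlinarith [mul_nonneg (sub_nonneg.2 hlb) hX]
  nlinarith

end dir

/-! ### products of converging families -/

section conv

theorem tendsto_I_mul {ι : Type*} {l : Filter ι} {f g : ι → M →ₘ[m] ℝ} {F G : M →ₘ[m] ℝ}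
    (hf : ∀ᶠ i in l, MemLp (f i) 2 m) (hg : ∀ᶠ i in l, MemLp (g i) 2 m) (hF : MemLp F 2 m)
    (hG : MemLp G 2 m)
    (hfF : Tendsto (fun i => I ((f i - F) ^ 2)) l (𝓝 0))
    (hgG : Tendsto (fun i => I ((g i - G) ^ 2)) l (𝓝 0)) :
    Tendsto (fun i => I (f i * g i)) l (𝓝 (I (F * G))) := by
  have e : ∀ i, MemLp (f i) 2 m → MemLp (g i) 2 m → I (f i * g i) - I (F * G) =
      I ((f i - F) * (g i - G)) + I ((f i - F) * G) + I (F * (g i - G)) := by
    intro i hfi hgi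
    have a1 := mem_mul_22 (mem_sub hfi hF) (mem_sub hgi hG)
    have a2 := mem_mul_22 (mem_sub hfi hF) hG
    have a3 := mem_mul_22 hF (mem_sub hgi hG)
    rw [← I_add a1 a2, ← I_add (mem_add a1 a2) a3, ← I_sub (mem_mul_22 hfi hgi)
      (mem_mul_22 hF hG)]
    congr 1; ring
  have b : ∀ᶠ i in l, |I (f i * g i) - I (F * G)| ≤
      √(I ((f i - F) ^ 2)) * √(I ((g i - G) ^ 2)) + √(I ((f i - F) ^ 2)) * √(I (G ^ 2))
        + √(I (F ^ 2)) * √(I ((g i - G) ^ 2)) := by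
    filter_upwards [hf, hg] with i hfi hgi
    rw [e i hfi hgi]
    have a1 := I_abs_le (mem_sub hfi hF) (mem_sub hgi hG)
    have a2 := I_abs_le (mem_sub hfi hF) hG
    have a3 := I_abs_le hF (mem_sub hgi hG)
    calc _ ≤ |I ((f i - F) * (g i - G))| + |I ((f i - F) * G)| + |I (F * (g i - G))| :=
          abs_add_three _ _ _
      _ ≤ _ := by gcongr
  have hs1 : Tendsto (fun i => √(I ((f i - F) ^ 2))) l (𝓝 0) := by
    have := (Real.continuous_sqrt.tendsto 0).comp hfF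
    rw [Real.sqrt_zero] at this; exact this
  have hs2 : Tendsto (fun i => √(I ((g i - G) ^ 2))) l (𝓝 0) := by
    have := (Real.continuous_sqrt.tendsto 0).comp hgG
    rw [Real.sqrt_zero] at this; exact this
  have hlim := ((hs1.mul hs2).add (hs1.mul_const (√(I (G ^ 2))))).add
    (hs2.const_mul (√(I (F ^ 2))))
  simp only [mul_zero, zero_mul, add_zero] at hlim
  rw [tendsto_iff_norm_sub_tendsto_zero]
  refine squeeze_zero' (Eventually.of_forall fun i => norm_nonneg _) ?_ hlim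
  filter_upwards [b] with i hi
  rw [Real.norm_eq_abs]; exact hi

theorem tendsto_I_wmul {ι : Type*} {l : Filter ι} {w : M →ₘ[m] ℝ} (hw : MemLp w ∞ m)
    {f g : ι → M →ₘ[m] ℝ} {F G : M →ₘ[m] ℝ}
    (hf : ∀ᶠ i in l, MemLp (f i) 2 m) (hg : ∀ᶠ i in l, MemLp (g i) 2 m) (hF : MemLp F 2 m)
    (hG : MemLp G 2 m)
    (hfF : Tendsto (fun i => I ((f i - F) ^ 2)) l (𝓝 0))
    (hgG : Tendsto (fun i => I ((g i - G) ^ 2)) l (𝓝 0)) :
    Tendsto (fun i => I (w * (f i * g i))) l (𝓝 (I (w * (F * G)))) := by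
  obtain ⟨K, hK⟩ := mem_top_iff.1 hw
  have h := tendsto_I_mul (f := fun i => w * f i) (F := w * F) (l := l)
    (hf.mono fun i hi => mem_mul_top hw hi) hg (mem_mul_top hw hF) hG ?_ hgG
  · refine (h.congr fun i => ?_).trans_eq ?_
    · rw [mul_assoc]
    · rw [mul_assoc]
  · have hb : ∀ᶠ i in l, I ((w * f i - w * F) ^ 2) ≤ K ^ 2 * I ((f i - F) ^ 2) := by
      filter_upwards [hf] with i hfi
      rw [← I_smul]
      have hd := mem_sub hfi hF
      refine I_mono (mem_sq (mem_sub (mem_mul_top hw hfi) (mem_mul_top hw hF)))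
        (mem_smul _ (mem_sq hd)) ?_
      rw [le_iff_ae]
      filter_upwards [hK, sq_ae (w * f i - w * F), sub_ae (w * f i) (w * F), mul_ae w (f i),
        mul_ae w F, smul_ae ((f i - F) ^ 2) (K ^ 2), sq_ae (f i - F), sub_ae (f i) F]
        with x e1 e2 e3 e4 e5 e6 e7 e8
      rw [e2, e3, e4, e5, e6, e7, e8]
      have : w x ^ 2 ≤ K ^ 2 := by rw [← sq_abs (w x)]; gcongr
      nlinarith [mul_nonneg (sub_nonneg.2 this) (sq_nonneg (f i x - F x))]
    refine squeeze_zero' (Eventually.of_forall fun i => I_sq_nonneg _) hb ?_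
    simpa using hfF.const_mul (K ^ 2)

end conv

section heat

variable (hC : IsDir C) {K : ℝ} {P : ℝ → (M →ₘ[m] ℝ) → (M →ₘ[m] ℝ)} (hP : Heat C K P)
include hC hP

/-- the weighted `L²` norm grows at most exponentially along the heat flow -/
theorem heat_weight {β : ℝ} {q : M →ₘ[m] ℝ}
    (hq : q ∈ C.A) (hq1 : ∀ᵐ x ∂m, C.Γ q q x ≤ 1) {f : M →ₘ[m] ℝ} (hf : MemLp f 2 m)
    {t : ℝ} (ht : 0 ≤ t) :
    I (wt β q * P t f ^ 2) ≤ Real.exp (β ^ 2 / 2 * t) * I (wt β q * f ^ 2) := by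
  have hw := wt_top hC β hq
  set F : ℝ → ℝ := fun s => I (wt β q * P s f ^ 2) with hF
  have hF' : ∀ s, F s = I (wt β q * (P s f * P s f)) := fun s => by rw [← sq]
  -- continuity
  have hcont : ContinuousOn F (Ici 0) := by
    intro s hs
    have h0 := hP.cont f hf s hs
    have h1 : ∀ᶠ r in 𝓝[Ici 0] s, MemLp (P r f) 2 m := by
      filter_upwards [self_mem_nhdsWithin] with r hr using hP.mem r hr f hf
    have h2 := tendsto_I_wmul hw h1 h1 (hP.mem s hs f hf) (hP.mem s hs f hf) h0 h0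
    rw [ContinuousWithinAt, hF' s]
    exact h2.congr fun r => (hF' r).symm
  -- derivative
  have hderiv : ∀ s, 0 < s → HasDerivAt F (2 * I (wt β q * (C.lap (P s f) * P s f))) s := by
    intro s hs
    have hu2 := hP.mem s hs.le f hf
    have hL := (hP.isLap s hs f hf).1
    have h0 := hP.deriv f hf s hs
    have hpos : ∀ᶠ r in 𝓝[≠] s, 0 ≤ r := by
      have : ∀ᶠ r in 𝓝 s, 0 ≤ r := (lt_mem_nhds hs).mono fun r hr => hr.le
      exact this.filter_mono nhdsWithin_le_nhds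
    have hcont' : Tendsto (fun r => I ((P r f - P s f) ^ 2)) (𝓝[≠] s) (𝓝 0) := by
      have h1 := hP.cont f hf s hs.le
      rw [nhdsWithin_eq_nhds.2 (Ici_mem_nhds hs)] at h1
      exact h1.mono_left nhdsWithin_le_nhds
    have h1 : ∀ᶠ r in 𝓝[≠] s, MemLp ((r - s)⁻¹ • (P r f - P s f) : M →ₘ[m] ℝ) 2 m :=
      hpos.mono fun r hr => mem_smul _ (mem_sub (hP.mem r hr f hf) hu2)
    have h2 : ∀ᶠ r in 𝓝[≠] s, MemLp (P r f + P s f : M →ₘ[m] ℝ) 2 m :=
      hpos.mono fun r hr => mem_add (hP.mem r hr f hf) hu2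
    have h3 := tendsto_I_wmul hw h1 h2 hL.2.1 (mem_add hu2 hu2) h0
      (hcont'.congr fun r => by congr 2; ring)
    rw [hasDerivAt_iff_tendsto_slope]
    have e1 : I (wt β q * (C.lap (P s f) * (P s f + P s f))) =
        2 * I (wt β q * (C.lap (P s f) * P s f)) := by
      rw [← I_smul]; congr 1
      rw [show (2:ℝ) • (wt β q * (C.lap (P s f) * P s f)) = (1 + 1 : ℝ) •
        (wt β q * (C.lap (P s f) * P s f)) by norm_num, add_smul, one_smul]; ring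
    rw [← e1]
    refine h3.congr' ?_
    filter_upwards [hpos] with r hr
    have i1 : MemLp (wt β q * P r f ^ 2 : M →ₘ[m] ℝ) 1 m :=
      mem_mul_top hw (mem_sq (hP.mem r hr f hf))
    have i2 : MemLp (wt β q * P s f ^ 2 : M →ₘ[m] ℝ) 1 m :=
      mem_mul_top hw (mem_sq hu2)
    rw [slope_def_field, hF]
    simp only
    rw [← I_sub i1 i2, div_eq_inv_mul, ← I_smul]
    congr 1
    rw [smul_mul_assoc, mul_smul_comm]; congr 1; ring
  have hle : ∀ s, 0 < s → 2 * I (wt β q * (C.lap (P s f) * P s f)) ≤ β ^ 2 / 2 * F s := by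
    intro s hs
    have hL := (hP.isLap s hs f hf).1
    obtain ⟨h1, h2⟩ := Γ_om_ge hC (β := β) hq hq1 hL.1
    have hu2 := hP.mem s hs.le f hf
    have hwe : P s f + om β q * P s f = wt β q * P s f := by rw [wt_eq]; ring
    have h3 := hL.2.2 _ h1
    have i1 : MemLp (wt β q * P s f ^ 2 : M →ₘ[m] ℝ) 1 m := mem_mul_top hw (mem_sq hu2)
    have h4 : -(β ^ 2 / 4) * I (wt β q * P s f ^ 2) ≤ I (C.Γ (P s f) (P s f + om β q * P s f)) := by
      rw [← I_smul]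
      refine I_mono (mem_smul _ i1) (hC.Γ_mem1 hL.1 h1) ?_
      rw [le_iff_ae]
      filter_upwards [h2, smul_ae (wt β q * P s f ^ 2) (-(β ^ 2 / 4)), mul_ae (wt β q) (P s f ^ 2),
        sq_ae (P s f)] with x e1 e2 e3 e4
      rw [e2, e3, e4]; exact e1
    have h5 : I (wt β q * (C.lap (P s f) * P s f)) = -I (C.Γ (P s f) (P s f + om β q * P s f)) := by
      have : I (C.Γ (P s f) (P s f + om β q * P s f)) =
          -I (C.lap (P s f) * (P s f + om β q * P s f)) := h3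
      rw [this, neg_neg, hwe]; congr 1; ring
    rw [h5]
    simp only [hF]
    linarith
  set c := β ^ 2 / 2 with hc
  have hG : AntitoneOn (fun s => Real.exp (-(c * s)) * F s) (Ici 0) := by
    have hd : ∀ s ∈ interior (Ici (0:ℝ)), HasDerivAt (fun s => Real.exp (-(c * s)) * F s)
        (Real.exp (-(c * s)) * (-c) * F s + Real.exp (-(c * s)) *
          (2 * I (wt β q * (C.lap (P s f) * P s f)))) s := by
      intro s hs
      rw [interior_Ici] at hs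
      have h1 : HasDerivAt (fun s : ℝ => -(c * s)) (-c) s :=
        (((hasDerivAt_id s).const_mul c).neg).congr_deriv (by ring)
      exact h1.exp.mul (hderiv s hs)
    refine antitoneOn_of_deriv_nonpos (convex_Ici 0) ?_ ?_ ?_
    · exact (Continuous.continuousOn (by fun_prop)).mul hcont
    · exact fun s hs => (hd s hs).differentiableAt.differentiableWithinAt
    · intro s hs
      rw [(hd s hs).deriv]
      rw [interior_Ici] at hs
      nlinarith [hle s hs, Real.exp_pos (-(c * s))]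
  have h := hG (self_mem_Ici (a := (0:ℝ))) (mem_Ici.2 ht) ht
  simp only [mul_zero, neg_zero, Real.exp_zero, one_mul] at h
  have h0 : F 0 = I (wt β q * f ^ 2) := by simp only [hF]; rw [hP.zero f hf]
  rw [h0, Real.exp_neg] at h
  have he := Real.exp_pos (c * t)
  rw [inv_mul_le_iff₀ he] at h
  exact h

end heat

end Vale.Agent.P233.H165
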